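import Mathlib

/-! Weighted filtrations of polynomial rings, the derivation `D`, constants. -/

namespace Vale.Agent.P021

open Finset MvPolynomial

section Fil

variable {σ : Type*} [Fintype σ]

/-- Weight of an exponent vector. -/
def wt (w : σ → ℝ) (e : σ →₀ ℕ) : ℝ := ∑ i, w i * e i

theorem wt_add (w : σ → ℝ) (e e' : σ →₀ ℕ) : wt w (e + e') = wt w e + wt w e' := by
  simp [wt, mul_add, sum_add_distrib]

@[simp] theorem wt_zero (w : σ → ℝ) : wt w 0 = 0 := by simp [wt]

theorem wt_single (w : σ → ℝ) (i : σ) (n : ℕ) : wt w (Finsupp.single i n) = w i * n := by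
  classical
  rw [wt, sum_eq_single i] <;> simp +contextual [eq_comm]

theorem wt_nonneg {w : σ → ℝ} (hw : ∀ i, 0 ≤ w i) (e : σ →₀ ℕ) : 0 ≤ wt w e :=
  sum_nonneg fun i _ => mul_nonneg (hw i) (Nat.cast_nonneg _)

theorem wt_neg (w : σ → ℝ) (e : σ →₀ ℕ) : wt (-w) e = -wt w e := by simp [wt]

/-- Polynomials all of whose monomials have weight at most `c`. -/
def Fil (w : σ → ℝ) (c : ℝ) : Submodule ℂ (MvPolynomial σ ℂ) where
  carrier := {f | ∀ e, c < wt w e → coeff e f = 0}
  add_mem' := fun {a b} ha hb e he => by rw [coeff_add, ha e he, hb e he, add_zero]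
  zero_mem' := fun e _ => coeff_zero e
  smul_mem' := fun r f hf e he => by rw [coeff_smul, hf e he, smul_zero]

variable {w : σ → ℝ} {c c' : ℝ} {f g : MvPolynomial σ ℂ}

theorem mem_Fil : f ∈ Fil w c ↔ ∀ e, c < wt w e → coeff e f = 0 := Iff.rfl

theorem mem_Fil' : f ∈ Fil w c ↔ ∀ e ∈ f.support, wt w e ≤ c := by
  rw [mem_Fil]
  refine forall_congr' fun e => ?_
  rw [mem_support_iff, ← not_le]; tauto

theorem Fil_mono (h : f ∈ Fil w c) (hc : c ≤ c') : f ∈ Fil w c' :=
  fun e he => h e (lt_of_le_of_lt hc he)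

theorem Fil_mul (hf : f ∈ Fil w c) (hg : g ∈ Fil w c') : f * g ∈ Fil w (c + c') := by
  classical
  intro e he
  rw [coeff_mul]
  refine sum_eq_zero fun x hx => ?_
  rw [← mem_antidiagonal.1 hx, wt_add] at he
  by_cases h : c < wt w x.1
  · rw [hf _ h, zero_mul]
  · rw [hg _ (by linarith), mul_zero]

theorem monomial_mem_Fil (e : σ →₀ ℕ) (a : ℂ) (h : wt w e ≤ c) : monomial e a ∈ Fil w c := by
  classical
  intro e' he'
  rw [coeff_monomial, if_neg]
  rintro rfl; linarith

theorem C_mem_Fil (a : ℂ) (h : 0 ≤ c) : (C a : MvPolynomial σ ℂ) ∈ Fil w c :=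
  monomial_mem_Fil 0 a (by simpa using h)

theorem one_mem_Fil (h : 0 ≤ c) : (1 : MvPolynomial σ ℂ) ∈ Fil w c := C_mem_Fil 1 h

theorem X_mem_Fil (i : σ) : (X i : MvPolynomial σ ℂ) ∈ Fil w (w i) :=
  monomial_mem_Fil _ 1 (by simp [wt_single])

theorem Fil_pow (hf : f ∈ Fil w c) (n : ℕ) : f ^ n ∈ Fil w (n * c) := by
  induction n with
  | zero => simpa using one_mem_Fil le_rfl
  | succ n ih => rw [pow_succ]; push_cast; rw [add_mul, one_mul]; exact Fil_mul ih hf

theorem Fil_prod {ι : Type*} (s : Finset ι) (x : ι → ℝ) (f : ι → MvPolynomial σ ℂ)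
    (h : ∀ i ∈ s, f i ∈ Fil w (x i)) : ∏ i ∈ s, f i ∈ Fil w (∑ i ∈ s, x i) := by
  classical
  induction s using Finset.induction_on with
  | empty => simpa using one_mem_Fil le_rfl
  | insert a s ha ih =>
    rw [sum_insert ha, prod_insert ha]
    exact Fil_mul (h a (mem_insert_self _ _)) (ih fun i hi => h i (mem_insert_of_mem hi))

theorem Fil_det {n : Type*} [Fintype n] [DecidableEq n] (M : Matrix n n (MvPolynomial σ ℂ))
    (h : ∀ i j, M i j ∈ Fil w c) : M.det ∈ Fil w (Fintype.card n * c) := by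
  rw [Matrix.det_apply]
  refine Submodule.sum_mem _ fun π _ => ?_
  rw [Units.smul_def]
  refine zsmul_mem ?_ _
  simpa using Fil_prod univ (fun _ => c) (fun j => M (π j) j) fun j _ => h _ _

theorem Fil_pderiv (hf : f ∈ Fil w c) (i : σ) : pderiv i f ∈ Fil w (c - w i) := by
  intro e he
  rw [coeff_pderiv, hf _ (by rw [wt_add, wt_single]; push_cast; linarith), zero_mul]

theorem exists_mem_Fil (w : σ → ℝ) (f : MvPolynomial σ ℂ) : ∃ c, f ∈ Fil w c := by
  obtain ⟨c, hc⟩ := (f.support.finite_toSet.image (wt w)).bddAbove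
  exact ⟨c, mem_Fil'.2 fun e he => hc ⟨e, he, rfl⟩⟩

theorem eq_zero_of_mem_Fil (hw : ∀ i, 0 ≤ w i) (hf : f ∈ Fil w c) (hc : c < 0) : f = 0 := by
  ext e
  exact hf e (lt_of_lt_of_le hc (wt_nonneg hw e))

theorem mem_Fil_neg_of_nonneg (hw : ∀ i, 0 ≤ w i) (f : MvPolynomial σ ℂ) (hc : 0 ≤ c) :
    f ∈ Fil (-w) c := by
  intro e he
  rw [wt_neg] at he
  linarith [wt_nonneg hw e]

theorem mem_Fil_one_iff {n : ℕ} : f ∈ Fil (fun _ => (1 : ℝ)) n ↔ f.totalDegree ≤ n := by
  rw [mem_Fil', totalDegree, Finset.sup_le_iff]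
  refine forall₂_congr fun e _ => ?_
  rw [Finsupp.sum_fintype _ _ (by simp), wt]
  simp only [one_mul]
  exact_mod_cast Iff.rfl

theorem derivation_eq_sum (d : Derivation ℂ (MvPolynomial σ ℂ) (MvPolynomial σ ℂ))
    (f : MvPolynomial σ ℂ) : d f = ∑ i, d (X i) * pderiv i f := by
  classical
  induction f using MvPolynomial.induction_on with
  | C a => simp
  | add p q hp hq => simp [hp, hq, mul_add, sum_add_distrib]
  | mul_X p n hp =>
    simp only [Derivation.leibniz, smul_eq_mul, mul_add, sum_add_distrib, hp, mul_sum]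
    congr 1
    · rw [sum_eq_single n]
      · simp [mul_comm]
      · intro b _ hb; rw [pderiv_X_of_ne (Ne.symm hb)]; simp
      · simp
    · exact sum_congr rfl fun i _ => by ring

theorem Fil_derivation (d : Derivation ℂ (MvPolynomial σ ℂ) (MvPolynomial σ ℂ)) {x : ℝ}
    (hd : ∀ i, d (X i) ∈ Fil w (w i + x)) (hf : f ∈ Fil w c) : d f ∈ Fil w (c + x) := by
  rw [derivation_eq_sum]
  refine Submodule.sum_mem _ fun i _ => ?_
  have := Fil_mul (hd i) (Fil_pderiv hf i)
  exact Fil_mono this (by linarith)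

end Fil

section Free

variable {σ : Type*}

theorem derivation_comm (d d' : Derivation ℂ (MvPolynomial σ ℂ) (MvPolynomial σ ℂ))
    (h : ∀ i, d (d' (X i)) = d' (d (X i))) (f : MvPolynomial σ ℂ) : d (d' f) = d' (d f) := by
  have : ⁅d, d'⁆ = 0 := derivation_ext fun i => by
    rw [Derivation.commutator_apply, h, sub_self]; rfl
  have h2 := congrArg (fun D : Derivation ℂ (MvPolynomial σ ℂ) (MvPolynomial σ ℂ) => D f) this
  simp only [Derivation.commutator_apply] at h2
  exact sub_eq_zero.1 h2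

theorem pderiv_comm (i j : σ) (f : MvPolynomial σ ℂ) :
    pderiv i (pderiv j f) = pderiv j (pderiv i f) := by
  classical
  refine derivation_comm _ _ (fun k => ?_) f
  simp only [pderiv_X, Pi.single_apply]
  split_ifs <;> simp

theorem pderiv_eq_zero_iff {i : σ} {f : MvPolynomial σ ℂ} :
    pderiv i f = 0 ↔ ∀ e ∈ f.support, e i = 0 := by
  classical
  constructor
  · intro h e he
    by_contra hne
    have h1 := coeff_pderiv (i := i) f (e - Finsupp.single i 1)
    rw [h, tsub_add_cancel_of_le (by rw [Finsupp.single_le_iff]; omega), coeff_zero] at h1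
    rcases mul_eq_zero.1 h1.symm with h2 | h2
    · exact mem_support_iff.1 he h2
    · exact absurd h2 (Nat.cast_add_one_ne_zero _)
  · intro h
    ext e
    rw [coeff_pderiv, coeff_zero]
    by_cases he : e + Finsupp.single i 1 ∈ f.support
    · simpa using h _ he
    · rw [notMem_support_iff.1 he, zero_mul]

/-- A nonzero polynomial in one variable lying in a prime ideal. -/
theorem exists_X_sub_C_mem {k : σ} {f : MvPolynomial σ ℂ} (hf : f ≠ 0)
    (hfree : ∀ i, i ≠ k → pderiv i f = 0) {p : Ideal (MvPolynomial σ ℂ)} (hp : p.IsPrime)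
    (hfp : f ∈ p) : ∃ c : ℂ, X k - C c ∈ p := by
  classical
  set q : Polynomial ℂ := ∑ e ∈ f.support, Polynomial.monomial (e k) (coeff e f) with hq
  have hfq : f = Polynomial.aeval (X k : MvPolynomial σ ℂ) q := by
    conv_lhs => rw [f.as_sum]
    rw [hq, map_sum]
    refine sum_congr rfl fun e he => ?_
    have : e = Finsupp.single k (e k) := by
      ext i
      by_cases hi : i = k
      · subst hi; simp
      · rw [Finsupp.single_eq_of_ne hi]; exact pderiv_eq_zero_iff.1 (hfree i hi) e he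
    rw [Polynomial.aeval_monomial, algebraMap_eq, C_mul_X_pow_eq_monomial, ← this]
  have hq0 : q ≠ 0 := by rintro h; rw [h, map_zero] at hfq; exact hf hfq
  have hs := (IsAlgClosed.splits q).eq_prod_roots
  rw [hs, map_mul, map_multiset_prod, Polynomial.aeval_C] at hfq
  rw [hfq] at hfp
  rcases hp.mem_or_mem hfp with h | h
  · exact absurd (p.eq_top_of_isUnit_mem h
      ((Ne.isUnit (Polynomial.leadingCoeff_ne_zero.2 hq0)).map _)) hp.ne_top
  · obtain ⟨x, hx, hxp⟩ := (hp.multiset_prod_mem_iff_exists_mem _).1 h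
    rw [Multiset.map_map] at hx
    obtain ⟨r, _, rfl⟩ := Multiset.mem_map.1 hx
    exact ⟨r, by simpa using hxp⟩

theorem pderiv_eq_zero_of_chain {k : σ} {g : MvPolynomial σ ℂ} (φ : (σ →₀ ℕ) → ℂ)
    (hφ : ∀ e, φ (e + Finsupp.single k 1) = φ e)
    (h : ∀ e, φ e * coeff e g = coeff e (pderiv k g)) :
    pderiv k g = 0 ∧ ∀ e ∈ g.support, φ e = 0 := by
  classical
  have h1 : ∀ e ∈ g.support, φ e = 0 := by
    by_contra hcon
    push Not at hcon
    obtain ⟨e0, he0, hφ0⟩ := hcon
    obtain ⟨e, he, hmax⟩ := exists_max_image (g.support.filter fun e => φ e ≠ 0) (fun e => e k)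
      ⟨e0, mem_filter.2 ⟨he0, hφ0⟩⟩
    obtain ⟨he1, he2⟩ := mem_filter.1 he
    have h2 : coeff (e + Finsupp.single k 1) g ≠ 0 := by
      intro h3
      have h4 := h e
      rw [coeff_pderiv, h3, zero_mul] at h4
      exact mul_ne_zero he2 (mem_support_iff.1 he1) h4
    have := hmax _ (mem_filter.2 ⟨mem_support_iff.2 h2, by rwa [hφ]⟩)
    simp at this
  refine ⟨?_, h1⟩
  ext e
  rw [← h, coeff_zero]
  by_cases he : e ∈ g.support
  · rw [h1 e he, zero_mul]
  · rw [notMem_support_iff.1 he, mul_zero]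

end Free

section Twisted

variable {ι : Type*} [Fintype ι]

/-- The derivation `Y d/dY + sum d/dx_i`. -/
noncomputable def DD : Derivation ℂ (MvPolynomial (Option ι) ℂ) (MvPolynomial (Option ι) ℂ) :=
  mkDerivation ℂ fun o => Option.casesOn o (X none) fun _ => 1

omit [Fintype ι] in
@[simp] theorem DD_none : DD (X none : MvPolynomial (Option ι) ℂ) = X none := by simp [DD]

omit [Fintype ι] in
@[simp] theorem DD_some (i : ι) : DD (X (some i) : MvPolynomial (Option ι) ℂ) = 1 := by simp [DD]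

theorem DD_eq (f : MvPolynomial (Option ι) ℂ) :
    DD f = X none * pderiv none f + ∑ i, pderiv (some i) f := by
  rw [derivation_eq_sum, Fintype.sum_option]; simp

omit [Fintype ι] in
theorem pderiv_DD (i : ι) (f : MvPolynomial (Option ι) ℂ) :
    pderiv (some i) (DD f) = DD (pderiv (some i) f) := by
  classical
  refine derivation_comm _ _ (fun k => ?_) f
  cases k with
  | none => simp
  | some k =>
    simp only [DD_some, pderiv_X, Pi.single_apply]
    split_ifs <;> simp

theorem Fil_DD {w : Option ι → ℝ} (hw : ∀ i, 0 ≤ w i) {c : ℝ} {f : MvPolynomial (Option ι) ℂ}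
    (hf : f ∈ Fil w c) : DD f ∈ Fil w c := by
  simpa using Fil_derivation DD (x := 0) (fun i => by
    cases i with
    | none => simpa using X_mem_Fil none
    | some i => simpa using one_mem_Fil (hw _)) hf

theorem coeff_X_mul_pderiv {σ : Type*} (i : σ) (f : MvPolynomial σ ℂ) (e : σ →₀ ℕ) :
    coeff e (X i * pderiv i f) = e i * coeff e f := by
  classical
  rw [coeff_X_mul']
  split_ifs with h
  · have h1 : 1 ≤ e i := Nat.pos_of_ne_zero (Finsupp.mem_support_iff.1 h)
    rw [coeff_pderiv, tsub_add_cancel_of_le (by rwa [Finsupp.single_le_iff])]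
    simp only [Finsupp.coe_tsub, Pi.sub_apply, Finsupp.single_eq_same]
    rw [Nat.cast_sub h1]; ring
  · rw [Finsupp.notMem_support_iff.1 h]; simp

theorem eigen_of_dvd {σ : Type*} [Fintype σ] {g x : MvPolynomial σ ℂ} (hg : g ≠ 0) (h : g ∣ x)
    (hx : x ∈ Fil (fun _ => (1 : ℝ)) g.totalDegree) : ∃ κ : ℂ, x = C κ * g := by
  obtain ⟨y, rfl⟩ := h
  by_cases hy : y = 0
  · exact ⟨0, by simp [hy]⟩
  have h1 := mem_Fil_one_iff.1 hx
  rw [totalDegree_mul_of_isDomain hg hy] at h1
  have h2 : y.totalDegree = 0 := by omega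
  exact ⟨_, by rw [mul_comm, ← totalDegree_eq_zero_iff_eq_C.1 h2]⟩

theorem monomial_of_dvd (k : ι) {g : MvPolynomial (Option ι) ℂ} (hg : g ≠ 0) (h1 : g ∣ DD g)
    (h2 : ∀ i, i ≠ k → g ∣ pderiv (some i) g) :
    ∃ β : ℕ, DD g = C (β : ℂ) * g ∧ ∀ e ∈ g.support, e = Finsupp.single none β := by
  classical
  have hF : g ∈ Fil (fun _ => (1 : ℝ)) g.totalDegree := mem_Fil_one_iff.2 le_rfl
  have h3 : ∀ i, i ≠ k → pderiv (some i) g = 0 := by
    intro i hi
    obtain ⟨κ, hκ⟩ := eigen_of_dvd hg (h2 i hi) (Fil_mono (Fil_pderiv hF _) (by linarith))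
    exact (pderiv_eq_zero_of_chain (fun _ => κ) (fun _ => rfl)
      (fun e => by rw [hκ, coeff_C_mul])).1
  obtain ⟨κ, hκ⟩ := eigen_of_dvd hg h1 (Fil_DD (fun _ => zero_le_one) hF)
  have h4 := pderiv_eq_zero_of_chain (k := some k) (g := g) (fun e => κ - e none)
    (fun e => by simp) (fun e => by
      have h5 := congrArg (coeff e) hκ
      rw [DD_eq, sum_eq_single k (fun i _ hi => h3 i hi) (by simp), coeff_add,
        coeff_X_mul_pderiv, coeff_C_mul] at h5
      linear_combination -h5)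
  obtain ⟨e0, he0⟩ := support_nonempty.2 hg
  have h6 : κ = e0 none := sub_eq_zero.1 (h4.2 e0 he0)
  refine ⟨e0 none, h6 ▸ hκ, fun e he => ?_⟩
  ext o
  cases o with
  | none =>
    have := sub_eq_zero.1 (h4.2 e he)
    rw [h6] at this
    simpa using this.symm
  | some i =>
    rw [Finsupp.single_eq_of_ne (by simp)]
    by_cases hi : i = k
    · subst hi; exact pderiv_eq_zero_iff.1 h4.1 e he
    · exact pderiv_eq_zero_iff.1 (h3 i hi) e he

/-- The common constants of `D` and all but one partial derivative are the scalars. -/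
theorem constants (k : ι) (f g : MvPolynomial (Option ι) ℂ) (hg : g ≠ 0)
    (h1 : g * DD f = f * DD g)
    (h2 : ∀ i, i ≠ k → g * pderiv (some i) f = f * pderiv (some i) g) : ∃ κ : ℂ, f = κ • g := by
  classical
  obtain ⟨g', f', c, hrel, rfl, rfl⟩ := UniqueFactorizationMonoid.exists_reduced_factors g hg f
  have hc : c ≠ 0 := left_ne_zero_of_mul hg
  have hg' : g' ≠ 0 := right_ne_zero_of_mul hg
  have red : ∀ d : Derivation ℂ (MvPolynomial (Option ι) ℂ) (MvPolynomial (Option ι) ℂ),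
      c * g' * d (c * f') = c * f' * d (c * g') → g' * d f' = f' * d g' := by
    intro d hd
    simp only [Derivation.leibniz, smul_eq_mul] at hd
    apply mul_left_cancel₀ (mul_ne_zero hc hc)
    linear_combination hd
  by_cases hf' : f' = 0
  · exact ⟨0, by simp [hf']⟩
  have dv : ∀ d : Derivation ℂ (MvPolynomial (Option ι) ℂ) (MvPolynomial (Option ι) ℂ),
      g' * d f' = f' * d g' → g' ∣ d g' ∧ f' ∣ d f' := fun d hd =>
    ⟨hrel.dvd_of_dvd_mul_left ⟨_, hd.symm⟩, hrel.symm.dvd_of_dvd_mul_left ⟨_, hd⟩⟩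
  obtain ⟨β, hβ, hβs⟩ := monomial_of_dvd k hg' (dv _ (red _ h1)).1
    fun i hi => (dv _ (red _ (h2 i hi))).1
  obtain ⟨β', hβ', hβs'⟩ := monomial_of_dvd k hf' (dv _ (red _ h1)).2
    fun i hi => (dv _ (red _ (h2 i hi))).2
  have h3 := red _ h1
  rw [hβ, hβ'] at h3
  have h4 : (C (β' : ℂ) : MvPolynomial (Option ι) ℂ) = C (β : ℂ) := by
    apply mul_left_cancel₀ (mul_ne_zero hg' hf')
    linear_combination h3
  have h5 : β' = β := by exact_mod_cast C_injective _ _ h4
  subst h5
  have e1 := eq_monomial_of_support_subset_singleton hβs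
  have e2 := eq_monomial_of_support_subset_singleton hβs'
  have h6 : coeff (Finsupp.single none β') g' ≠ 0 := by
    intro h; rw [h, monomial_zero] at e1; exact hg' e1
  refine ⟨coeff (Finsupp.single none β') f' / coeff (Finsupp.single none β') g', ?_⟩
  rw [← mul_smul_comm]
  congr 1
  conv_rhs => rw [e1]
  rw [smul_monomial, smul_eq_mul, coeff_monomial, if_pos rfl, div_mul_cancel₀ _ h6]
  exact e2

end Twisted

end Vale.Agent.P021
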