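import Vale.Agent.P021.Lower

/-! Comparison of the two bounds at a fixed height `H`. -/

namespace Vale.Agent.P021

open Finset MvPolynomial

set_option maxHeartbeats 1000000 in
theorem core {m K : ℕ} (hK : 0 < K) {ν θ δ A v0 H : ℝ} (hν : 2 < ν) (hθ : 0 < θ) (hδ : 0 < δ)
    (hδ1 : δ < 1) (hA : 0 < A) (hv0 : 0 < v0) (hκ : 1 ≤ θ * v0) (hH : 0 < H)
    (p : Fin m → ℤ) (q : Fin m → ℕ) (W V : Option (Fin m) → ℝ) (T : Fin m → ℕ)
    (x : Fin K → Fin m → ℂ) (hx : ∀ j i, x j i = (j : ℕ) * (2 * Complex.I * (p i / q i)))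
    (hW0 : W none = Real.exp 2 * (2 * Real.pi * K + 1)) (hV0 : V none = v0)
    (hVW : ∀ i, V (some i) * θ = W (some i)) (hw : ∀ i, 0 < W (some i))
    (hq : ∀ i, (q i : ℝ) = Real.exp (W (some i)))
    (happ : ∀ i, |Real.pi - p i / q i| ≤ Real.exp (-ν * W (some i)))
    (hT : ∀ i, W (some i) ≤ θ * v0 * (T i + 1))
    (hL : ∀ i, 2 * W none * Nat.lcmUpto (T i) ≤ Real.exp (δ * W (some i)))
    (hK3 : ∀ i, 2 * (2 * (K : ℝ) + 3) ≤ Real.exp (δ * W (some i)))
    (hint : ∀ g : Fin K → AA m, ∃ f ∈ Fil W H, ∀ j, sig T (x j) f - g j ∈ Fil (-V) (-H))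
    (hcount : ((box (fun i => W (some i)) (A * H)).card : ℝ) * ((ν - δ) * A * H + 1)
      ≤ δ * (K * (δ * H / v0) * (box (fun i => W (some i)) (θ * (1 - δ) * H)).card))
    (hgap : (K : ℝ) * (δ * H / v0 + 1) * (box (fun i => W (some i)) (θ * (1 - δ) * H)).card
      * 2 ^ (m + 1) < Real.exp
        (((1 - δ) * ((ν - δ) * A) - ((1 + δ) + ν * θ * δ + (ν - 1) * θ)) * H)) : False := by
  classical
  set w : Fin m → ℝ := fun i => W (some i) with hwdef
  set Bx := box w (θ * (1 - δ) * H) with hBx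
  set na : ℕ := ⌈δ * H / v0⌉₊ with hna
  let ρ := Fin K × Fin na × Bx
  let er : ρ → Option (Fin m) →₀ ℕ := fun r => r.2.2.1.optionElim r.2.1
  have her0 : ∀ r, er r none = r.2.1 := fun r => by simp [er]
  have her1 : ∀ r i, er r (some i) = r.2.2.1 i := fun r i => by simp [er]
  have hpi := Real.pi_pos
  have hW0pos : 0 < W none := by rw [hW0]; positivity
  have hWpos : ∀ o, 0 < W o := fun o => by cases o; exacts [hW0pos, hw _]
  have hb : ∀ r : ρ, ∑ i, w i * er r (some i) ≤ θ * (1 - δ) * H := fun r => by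
    simp only [her1]; exact (mem_box hw).1 r.2.2.2
  have ha : ∀ r : ρ, v0 * er r none < δ * H := fun r => by
    have h1 : ((r.2.1 : ℕ) : ℝ) < δ * H / v0 := Nat.lt_ceil.1 r.2.1.2
    rw [lt_div_iff₀ hv0] at h1
    rw [her0]; linarith
  have hrow : ∀ r : ρ, wt V (er r) < H := by
    intro r
    have h1 : θ * ∑ i, V (some i) * er r (some i) = ∑ i, w i * er r (some i) := by
      rw [mul_sum]; exact sum_congr rfl fun i _ => by simp only [hwdef, ← hVW]; ring
    have h2 : ∑ i, V (some i) * er r (some i) ≤ (1 - δ) * H := by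
      apply le_of_mul_le_mul_left _ hθ
      rw [h1, ← mul_assoc]; exact hb r
    rw [wt, Fintype.sum_option, hV0]
    linarith [ha r]
  let u : box W H → ρ → ℂ := fun c r => coeff (er r) (sig T (x r.1) (monomial c.1 1))
  have hspan : Submodule.span ℂ (Set.range u) = ⊤ := by
    rw [eq_top_iff]
    intro τ _
    obtain ⟨f, hf, hfg⟩ := hint fun j => ∑ r : ρ, if r.1 = j then monomial (er r) (τ r) else 0
    have h1 : τ = ∑ c ∈ f.support, coeff c f •
        fun r : ρ => coeff (er r) (sig T (x r.1) (monomial c 1)) := by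
      ext r
      have h2 := hfg r.1 (er r) (by rw [wt_neg]; linarith [hrow r])
      rw [coeff_sub, sub_eq_zero, coeff_sum, sum_eq_single r] at h2
      · rw [if_pos rfl, coeff_monomial, if_pos rfl] at h2
        rw [← h2]
        conv_lhs => rw [f.as_sum]
        rw [map_sum, coeff_sum, Finset.sum_apply]
        refine sum_congr rfl fun c _ => ?_
        rw [Pi.smul_apply, ← coeff_smul, ← map_smul, smul_monomial, smul_eq_mul, mul_one]
      · intro r' _ hne
        split_ifs with h3
        · rw [coeff_monomial, if_neg]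
          intro h4
          apply hne
          refine Prod.ext h3 (Prod.ext (Fin.ext ?_) (Subtype.ext ?_))
          · rw [← her0, ← her0, h4]
          · ext i; rw [← her1, ← her1, h4]
        · exact coeff_zero _
      · simp
    rw [h1]
    refine Submodule.sum_mem _ fun c hc => Submodule.smul_mem _ _ (Submodule.subset_span ?_)
    exact ⟨⟨c, (mem_box hWpos).2 (mem_Fil'.1 hf c hc)⟩, rfl⟩
  obtain ⟨c, hc⟩ := exists_minor u hspan
  set Q : Fin m → ℕ := fun i => q i * Nat.lcmUpto (T i) with hQ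
  have hqpos : ∀ i, 0 < (q i : ℝ) := fun i => by rw [hq]; exact Real.exp_pos _
  have hq0 : ∀ i, q i ≠ 0 := fun i => by exact_mod_cast (hqpos i).ne'
  have hlow := lower_bound T (fun r : ρ => x r.1) er (fun r => (c r).1) Q
    (fun i => mul_ne_zero (hq0 i) (Nat.lcmUpto_ne_zero _))
    (fun r i => ⟨⟨0, 2 * (r.1 : ℕ) * p i * Nat.lcmUpto (T i)⟩, by
      have : (q i : ℂ) ≠ 0 := Nat.cast_ne_zero.2 (hq0 i)
      rw [GaussianInt.toComplex_def', hx, hQ]
      push_cast
      field_simp
      ring⟩)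
    (fun i k h1 h2 => Dvd.dvd.mul_left (Finset.dvd_lcm (f := id) (mem_Icc.2 ⟨h1, h2⟩)) _) hc
  set G : ℝ := (ν - δ) * A * H with hG
  have hνδ : 0 < ν - δ := by linarith
  have hG0 : 0 ≤ G := by positivity
  have hM : (Fintype.card ρ : ℝ) = K * na * Bx.card := by
    simp only [ρ, Fintype.card_prod, Fintype.card_fin, Fintype.card_coe]
    push_cast; ring
  let rad : Option (Fin m) → ℝ := fun o =>
    Option.casesOn o (Real.exp (-(ν * θ * v0))) fun i => Real.exp (-ν * w i)
  have hκ2 : 1 ≤ ν * θ * v0 := by nlinarith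
  have hup := upper_bound T (fun r : ρ => x r.1) (fun r => r.1) er (fun r => (c r).1)
    (fun i => (Q i : ℝ)) (fun i => Nat.cast_nonneg _) rad
    (fun o => by cases o <;> exact Real.exp_pos _)
    (by
      change Real.exp (-(ν * θ * v0)) ≤ 1 / 2
      rw [Real.exp_neg, one_div]
      exact inv_anti₀ (by norm_num) (by linarith [Real.add_one_le_exp (ν * θ * v0)]))
    (fun i => (ν - δ) * w i) (R0 := 2 * Real.pi * K + 1) (X := Real.exp ((1 + δ) * H))
    (Γ := (1 - δ) * Fintype.card ρ * G)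
    (fun r => by
      have : ((r.1 : ℕ) : ℝ) ≤ K := by exact_mod_cast r.1.2.le
      gcongr)
    (by linarith [mul_nonneg (mul_nonneg zero_le_two hpi.le) (Nat.cast_nonneg (α := ℝ) K)])
    (fun r i => by
      have h1 : ‖x r.1 i - ((r.1 : ℕ) : ℂ) * (2 * Real.pi * Complex.I)‖
          ≤ 2 * K * Real.exp (-ν * w i) := by
        have h2 : x r.1 i - ((r.1 : ℕ) : ℂ) * (2 * Real.pi * Complex.I)
            = -(((r.1 : ℕ) : ℂ) * (2 * Complex.I * ((Real.pi - p i / q i : ℝ) : ℂ))) := by
          rw [hx]; push_cast; ring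
        rw [h2, norm_neg, norm_mul, norm_mul, norm_mul, Complex.norm_real, Complex.norm_natCast,
          Complex.norm_I, Complex.norm_ofNat, Real.norm_eq_abs]
        have h3 : ((r.1 : ℕ) : ℝ) ≤ K := by exact_mod_cast r.1.2.le
        calc _ ≤ (K : ℝ) * (2 * 1 * Real.exp (-ν * w i)) := by gcongr; exact happ i
          _ = _ := by ring
      have h4 : rad none ^ (T i + 1) ≤ Real.exp (-ν * w i) := by
        change Real.exp (-(ν * θ * v0)) ^ (T i + 1) ≤ _
        rw [← Real.exp_nat_mul, Real.exp_le_exp]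
        have := hT i
        push_cast
        simp only [hwdef]
        nlinarith
      have h5 : rad (some i) = Real.exp (-ν * w i) := rfl
      have h6 : Real.exp (-((ν - δ) * w i)) = Real.exp (δ * w i) * Real.exp (-ν * w i) := by
        rw [← Real.exp_add]; congr 1; ring
      have h7 := mul_le_mul_of_nonneg_right (hK3 i) (Real.exp_pos (-ν * w i)).le
      rw [h5, h6]
      linarith)
    (Real.exp_pos _).le
    (fun r => by
      rw [← hW0]
      have h1 : wt W (c r).1 ≤ H := (mem_box hWpos).1 (c r).2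
      have h2 : ∀ i, 2 * W none * (Q i : ℝ) ≤ Real.exp ((1 + δ) * w i) := fun i => by
        have h3 := mul_le_mul_of_nonneg_left (hL i) (hqpos i).le
        rw [add_mul, one_mul, Real.exp_add, ← hq, hQ]
        push_cast
        linarith
      calc _ ≤ Real.exp ((c r).1 none * W none) *
            ∏ i, Real.exp ((1 + δ) * w i) ^ (c r).1 (some i) := by
            gcongr with i
            exact h2 i
        _ = Real.exp ((c r).1 none * W none + (1 + δ) * ∑ i, w i * (c r).1 (some i)) := by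
            rw [Real.exp_add, mul_sum, Real.exp_sum]
            congr 1
            refine prod_congr rfl fun i _ => ?_
            rw [← Real.exp_nat_mul]; congr 1; ring
        _ ≤ _ := by
            rw [Real.exp_le_exp]
            rw [wt, Fintype.sum_option] at h1
            have : 0 ≤ δ * (W none * (c r).1 none) := by positivity
            nlinarith)
    (fun ξ hξ => cost_lower (fun ξ : (Fin m → ℕ) × ℕ => ∑ i, (ν - δ) * w i * ξ.1 i + ξ.2)
      (fun ξ => add_nonneg (sum_nonneg fun i _ => by have := hw i; positivity) (Nat.cast_nonneg _))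
      hG0 (((box w (A * H)).map Finsupp.equivFunOnFinite.toEmbedding) ×ˢ range ⌈G⌉₊)
      (fun ξ hξ => by
        have h1 : ∑ i, (ν - δ) * w i * ξ.1 i = (ν - δ) * ∑ i, w i * ξ.1 i := by
          rw [mul_sum]; exact sum_congr rfl fun i _ => by ring
        have h2 : 0 ≤ ∑ i, w i * ξ.1 i := sum_nonneg fun i _ => by have := hw i; positivity
        have h3 : (0 : ℝ) ≤ ξ.2 := Nat.cast_nonneg _
        rw [h1] at hξ
        rw [mem_product, mem_map_equiv, mem_box hw, mem_range, Nat.lt_ceil]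
        constructor
        · change ∑ i, w i * ξ.1 i ≤ A * H
          apply le_of_mul_le_mul_left _ hνδ
          rw [hG] at hξ; linarith
        · nlinarith)
      (by
        rw [card_product, card_map, card_range, hM]
        push_cast
        have h1 : (⌈G⌉₊ : ℝ) ≤ G + 1 := (Nat.ceil_lt_add_one hG0).le
        have h2 : δ * H / v0 ≤ na := Nat.le_ceil _
        calc _ ≤ ((box w (A * H)).card : ℝ) * (G + 1) := by gcongr
          _ ≤ _ := hcount
          _ ≤ _ := by gcongr) ξ hξ)
  have hboth := hlow.trans hup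
  set M := Fintype.card ρ with hMdef
  have hMpos : 0 < M := by
    have h1 : 0 < na := Nat.ceil_pos.2 (by positivity)
    have h2 : (0 : Fin m →₀ ℕ) ∈ Bx := (mem_box hw).2 (by
      rw [wt_zero]; have : 0 < 1 - δ := by linarith
      positivity)
    exact Fintype.card_pos_iff.2 ⟨⟨⟨0, hK⟩, ⟨0, h1⟩, ⟨0, h2⟩⟩⟩
  set E : ℝ := Real.exp ((ν * θ * δ + (ν - 1) * θ) * H) with hE
  have hrowb : ∀ r : ρ, ∏ o, (rad o)⁻¹ ^ er r o ≤ E * ∏ i, (Q i : ℝ) ^ er r (some i) := by
    intro r
    have h1 : ∏ o, (rad o)⁻¹ ^ er r o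
        = Real.exp (ν * θ * (v0 * er r none) + (ν - 1) * ∑ i, w i * er r (some i))
          * ∏ i, Real.exp (w i) ^ er r (some i) := by
      rw [Fintype.prod_option]
      simp only [rad, ← Real.exp_neg, ← Real.exp_nat_mul, ← Real.exp_sum, ← Real.exp_add]
      congr 1
      rw [mul_sum, add_assoc, ← sum_add_distrib]
      congr 1
      · ring
      · exact sum_congr rfl fun i _ => by ring
    rw [h1]
    gcongr with i
    · rw [hE, Real.exp_le_exp]
      have h2 := mul_le_mul_of_nonneg_left (ha r).le (by positivity : 0 ≤ ν * θ)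
      have h3 := mul_le_mul_of_nonneg_left (hb r) (by linarith : 0 ≤ ν - 1)
      have h4 : 0 ≤ (ν - 1) * (θ * δ * H) := mul_nonneg (by linarith) (by positivity)
      nlinarith
    · rw [← hq, hQ]
      push_cast
      exact le_mul_of_one_le_right (hqpos i).le (by exact_mod_cast Nat.lcmUpto_pos _)
  set Lw : ℝ := ∏ r : ρ, ∏ i, (Q i : ℝ) ^ er r (some i) with hLw
  have hLpos : 0 < Lw := prod_pos fun r _ => prod_pos fun i _ => pow_pos (by
    rw [hQ]; push_cast
    exact mul_pos (hqpos i) (by exact_mod_cast Nat.lcmUpto_pos _)) _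
  have hprod : ∏ r : ρ, ∏ o, (rad o)⁻¹ ^ er r o ≤ E ^ M * Lw := by
    calc _ ≤ ∏ r : ρ, E * ∏ i, (Q i : ℝ) ^ er r (some i) :=
          prod_le_prod (fun r _ => prod_nonneg fun o _ => pow_nonneg (inv_nonneg.2
            (by cases o <;> exact (Real.exp_pos _).le)) _) fun r _ => hrowb r
      _ = _ := by rw [prod_mul_distrib, prod_const, card_univ]
  have hprod0 : 0 ≤ ∏ r : ρ, ∏ o, (rad o)⁻¹ ^ er r o :=
    prod_nonneg fun r _ => prod_nonneg fun o _ => pow_nonneg (inv_nonneg.2
      (by cases o <;> exact (Real.exp_pos _).le)) _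
  have hfac : (M.factorial : ℝ) ≤ (M : ℝ) ^ M := by exact_mod_cast Nat.factorial_le_pow M
  set Y : ℝ := M * Real.exp ((1 + δ) * H) * E * Real.exp (-((1 - δ) * G)) * 2 ^ (m + 1) with hY
  have h1 : Lw ≤ Y ^ M * Lw := by
    refine hboth.trans ?_
    have h2 : Real.exp (-((1 - δ) * M * G)) = Real.exp (-((1 - δ) * G)) ^ M := by
      rw [← Real.exp_nat_mul]; congr 1; ring
    rw [h2]
    calc _ ≤ (M : ℝ) ^ M * Real.exp ((1 + δ) * H) ^ M * (E ^ M * Lw)
          * Real.exp (-((1 - δ) * G)) ^ M * (2 ^ (m + 1)) ^ M := by gcongr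
      _ = _ := by rw [hY]; simp only [mul_pow]; ring
  have hY1 : Y < 1 := by
    have h2 : (M : ℝ) ≤ K * (δ * H / v0 + 1) * Bx.card := by
      rw [hM]
      have : (na : ℝ) ≤ δ * H / v0 + 1 := (Nat.ceil_lt_add_one (by positivity)).le
      gcongr
    have h3 : Y = M * 2 ^ (m + 1) * Real.exp
        (-(((1 - δ) * ((ν - δ) * A) - ((1 + δ) + ν * θ * δ + (ν - 1) * θ)) * H)) := by
      have h4 : Real.exp ((1 + δ) * H) * E * Real.exp (-((1 - δ) * G)) = Real.exp
          (-(((1 - δ) * ((ν - δ) * A) - ((1 + δ) + ν * θ * δ + (ν - 1) * θ)) * H)) := by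
        rw [hE, ← Real.exp_add, ← Real.exp_add, hG]; congr 1; ring
      rw [hY, ← h4]; ring
    rw [h3, Real.exp_neg, mul_inv_lt_iff₀ (Real.exp_pos _), one_mul]
    exact lt_of_le_of_lt (by gcongr) hgap
  have hY0 : 0 ≤ Y := by positivity
  have h5 : Y ^ M < 1 := pow_lt_one₀ hY0 hY1 hMpos.ne'
  nlinarith

end Vale.Agent.P021
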