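import Vale.Agent.P021.Basic

/-! Counting lattice points in a weighted simplex. -/

namespace Vale.Agent.P021

open Finset

open Classical in
/-- Exponent vectors of weight at most `H`. -/
noncomputable def box {ι : Type*} [Fintype ι] (w : ι → ℝ) (H : ℝ) : Finset (ι →₀ ℕ) :=
  (Iic (Finsupp.equivFunOnFinite.symm fun i => ⌊H / w i⌋₊)).filter fun e => wt w e ≤ H

theorem le_wt {ι : Type*} [Fintype ι] {w : ι → ℝ} (hw : ∀ i, 0 ≤ w i) (e : ι →₀ ℕ) (i : ι) :
    w i * e i ≤ wt w e :=
  single_le_sum (f := fun i => w i * e i)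
    (fun i _ => mul_nonneg (hw i) (Nat.cast_nonneg _)) (mem_univ _)

theorem mem_box {ι : Type*} [Fintype ι] {w : ι → ℝ} (hw : ∀ i, 0 < w i) {H : ℝ} {e : ι →₀ ℕ} :
    e ∈ box w H ↔ wt w e ≤ H := by
  classical
  unfold box
  rw [mem_filter, mem_Iic]
  refine ⟨fun h => h.2, fun h => ⟨fun i => ?_, h⟩⟩
  simp only [Finsupp.equivFunOnFinite_symm_apply_apply]
  apply Nat.le_floor
  rw [le_div_iff₀ (hw i), mul_comm]
  exact (le_wt (fun i => (hw i).le) e i).trans h

theorem pow_sub_pow_bounds {x y : ℝ} (hy : 0 ≤ y) (hxy : y ≤ x) (n : ℕ) :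
    (n + 1) * (x - y) * y ^ n ≤ x ^ (n + 1) - y ^ (n + 1) ∧
      x ^ (n + 1) - y ^ (n + 1) ≤ (n + 1) * (x - y) * x ^ n := by
  induction n with
  | zero => simp
  | succ n ih =>
    have hx : 0 ≤ x := hy.trans hxy
    have h1 : y ^ (n + 1) ≤ x ^ (n + 1) := pow_le_pow_left₀ hy hxy _
    have h2 : 0 ≤ x - y := sub_nonneg.2 hxy
    have h3 := mul_le_mul_of_nonneg_left ih.1 hy
    have h4 := mul_le_mul_of_nonneg_left ih.2 hx
    have h5 := mul_le_mul_of_nonneg_left h1 h2
    push_cast
    constructor
    · have : x ^ (n + 1 + 1) - y ^ (n + 1 + 1)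
          = y * (x ^ (n + 1) - y ^ (n + 1)) + (x - y) * x ^ (n + 1) := by ring
      rw [this, pow_succ y n] at *
      nlinarith
    · have : x ^ (n + 1 + 1) - y ^ (n + 1 + 1)
          = x * (x ^ (n + 1) - y ^ (n + 1)) + (x - y) * y ^ (n + 1) := by ring
      rw [this, pow_succ x n] at *
      nlinarith

theorem sum_pow_lower {w : ℝ} (hw : 0 < w) (n k : ℕ) : ∀ H : ℝ, k * w ≤ H → H ≤ (k + 1) * w →
    H ^ (n + 1) ≤ (n + 1) * w * ∑ a ∈ range (k + 1), (H - w * a) ^ n := by
  induction k with
  | zero =>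
    intro H h1 h2
    simp only [Nat.cast_zero, zero_mul, zero_add, one_mul, range_one, sum_singleton, mul_zero,
      sub_zero] at *
    have : (1 : ℝ) ≤ n + 1 := by linarith [Nat.cast_nonneg (α := ℝ) n]
    rw [pow_succ']
    gcongr
    nlinarith
  | succ k ih =>
    intro H h1 h2
    push_cast at h1 h2
    have hk : (0 : ℝ) ≤ k * w := by positivity
    have h3 := ih (H - w) (by linarith) (by linarith)
    have h4 := (pow_sub_pow_bounds (x := H) (y := H - w) (by linarith) (by linarith) n).2
    rw [sum_range_succ', mul_add]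
    have : ∑ a ∈ range (k + 1), (H - w * ((a + 1 : ℕ) : ℝ)) ^ n
        = ∑ a ∈ range (k + 1), (H - w - w * a) ^ n :=
      sum_congr rfl fun a _ => by push_cast; ring
    rw [this]
    simp only [Nat.cast_zero, mul_zero, sub_zero, sub_sub_cancel] at *
    linarith

theorem sum_pow_upper {w S : ℝ} (hw : 0 < w) (hS : 0 ≤ S) (n k : ℕ) : ∀ H : ℝ, k * w ≤ H →
    (n + 1) * w * ∑ a ∈ range (k + 1), (H - w * a + S) ^ n ≤ (H + (w + S)) ^ (n + 1) := by
  induction k with
  | zero =>
    intro H h1
    simp only [Nat.cast_zero, zero_mul, zero_add, range_one, sum_singleton, mul_zero,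
      sub_zero] at *
    have h4 := (pow_sub_pow_bounds (x := H + (w + S)) (y := H + S) (by linarith) (by linarith) n).1
    have h5 : 0 ≤ (H + S) ^ (n + 1) := by positivity
    have h6 : H + (w + S) - (H + S) = w := by ring
    rw [h6] at h4
    linarith
  | succ k ih =>
    intro H h1
    push_cast at h1
    have hk : (0 : ℝ) ≤ k * w := by positivity
    have h3 := ih (H - w) (by linarith)
    have h4 := (pow_sub_pow_bounds (x := H + (w + S)) (y := H + S) (by linarith) (by linarith) n).1
    rw [sum_range_succ', mul_add]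
    have : ∑ a ∈ range (k + 1), (H - w * ((a + 1 : ℕ) : ℝ) + S) ^ n
        = ∑ a ∈ range (k + 1), (H - w - w * a + S) ^ n :=
      sum_congr rfl fun a _ => by push_cast; ring
    rw [this]
    have h6 : H + (w + S) - (H + S) = w := by ring
    have h7 : H - w + (w + S) = H + S := by ring
    rw [h6] at h4
    rw [h7] at h3
    simp only [Nat.cast_zero, mul_zero, sub_zero] at *
    linarith

theorem wt_option {ι : Type*} [Fintype ι] (w : Option ι → ℝ) (e : Option ι →₀ ℕ) :
    wt w e = w none * e none + wt (fun i => w (some i)) e.some := by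
  simp [wt, Fintype.sum_option]

theorem card_box_option {ι : Type*} [Fintype ι] {w : Option ι → ℝ} (hw : ∀ i, 0 < w i) (H : ℝ) :
    (box w H).card = ∑ a ∈ range (⌊H / w none⌋₊ + 1),
      (box (fun i => w (some i)) (H - w none * a)).card := by
  classical
  rw [card_eq_sum_card_fiberwise (f := fun e => e none) (t := range (⌊H / w none⌋₊ + 1))]
  · refine sum_congr rfl fun a _ => ?_
    refine card_nbij' (fun e => e.some) (fun b => b.optionElim a) ?_ ?_ ?_ ?_
    · intro e he
      obtain ⟨h1, h2⟩ := mem_filter.1 (mem_coe.1 he)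
      rw [mem_box hw, wt_option, h2] at h1
      rw [mem_coe, mem_box (fun i => hw _)]
      linarith
    · intro b hb
      rw [mem_coe, mem_box (fun i => hw _)] at hb
      rw [mem_coe, mem_filter, mem_box hw, wt_option]
      simp only [Finsupp.optionElim_apply_none, Finsupp.some_optionElim, and_true]
      linarith
    · intro e he
      obtain ⟨_, h2⟩ := mem_filter.1 (mem_coe.1 he)
      simp only
      rw [← h2, Finsupp.optionElim_some]
    · intro b _
      simp
  · intro e he
    rw [mem_coe, mem_box hw] at he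
    rw [mem_coe, mem_range, Nat.lt_succ_iff]
    apply Nat.le_floor
    rw [le_div_iff₀ (hw _), mul_comm]
    exact (le_wt (fun i => (hw i).le) e none).trans he

theorem card_box_bounds (ι : Type) [Fintype ι] : ∀ w : ι → ℝ, (∀ i, 0 < w i) → ∀ H : ℝ, 0 ≤ H →
    H ^ Fintype.card ι ≤ (Fintype.card ι).factorial * (∏ i, w i) * (box w H).card ∧
    (Fintype.card ι).factorial * (∏ i, w i) * (box w H).card
      ≤ (H + ∑ i, w i) ^ Fintype.card ι := by
  refine Fintype.induction_empty_option (P := fun ι _ => ∀ w : ι → ℝ, (∀ i, 0 < w i) →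
    ∀ H : ℝ, 0 ≤ H →
    H ^ Fintype.card ι ≤ (Fintype.card ι).factorial * (∏ i, w i) * (box w H).card ∧
    (Fintype.card ι).factorial * (∏ i, w i) * (box w H).card
      ≤ (H + ∑ i, w i) ^ Fintype.card ι) ?_ ?_ ?_ ι
  · intro α β _ e ih w hw H hH
    let _ : Fintype α := Fintype.ofEquiv β e.symm
    have h := ih (fun a => w (e a)) (fun a => hw _) H hH
    have h1 : (box (fun a => w (e a)) H).card = (box w H).card := by
      refine card_equiv (Finsupp.equivCongrLeft e) fun f => ?_
      rw [mem_box (fun a => hw _), mem_box hw, wt, wt, ← e.sum_comp]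
      simp
    rwa [h1, Fintype.card_congr e, e.prod_comp, e.sum_comp] at h
  · intro w hw H hH
    have : box w H = {0} := by
      ext e
      rw [mem_box hw, mem_singleton]
      simp [wt, hH, Subsingleton.elim e 0]
    simp [this]
  · intro α _ ih w hw H hH
    rw [card_box_option hw, Fintype.card_option, Fintype.prod_option, Fintype.sum_option,
      Nat.factorial_succ]
    have hw0 := hw none
    have hfl : (⌊H / w none⌋₊ : ℝ) * w none ≤ H := by
      rw [← le_div_iff₀ hw0]; exact Nat.floor_le (by positivity)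
    have hfl' : H ≤ ((⌊H / w none⌋₊ : ℝ) + 1) * w none := by
      rw [← div_le_iff₀ hw0]; exact (Nat.lt_floor_add_one _).le
    have hnn : ∀ a ∈ range (⌊H / w none⌋₊ + 1), 0 ≤ H - w none * a := by
      intro a ha
      have : (a : ℝ) ≤ ⌊H / w none⌋₊ := by exact_mod_cast Nat.lt_succ_iff.1 (mem_range.1 ha)
      nlinarith
    have hS : 0 ≤ ∑ i, w (some i) := sum_nonneg fun i _ => (hw _).le
    have heq : (((Fintype.card α + 1) * (Fintype.card α).factorial : ℕ) : ℝ)
        * (w none * ∏ i, w (some i)) * ((∑ a ∈ range (⌊H / w none⌋₊ + 1),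
          (box (fun i => w (some i)) (H - w none * a)).card : ℕ) : ℝ)
        = (Fintype.card α + 1) * w none * ∑ a ∈ range (⌊H / w none⌋₊ + 1),
          ((Fintype.card α).factorial * (∏ i, w (some i))
            * (box (fun i => w (some i)) (H - w none * a)).card) := by
      push_cast
      rw [← mul_sum]; ring
    rw [heq]
    constructor
    · refine (sum_pow_lower hw0 _ _ H hfl hfl').trans ?_
      gcongr with a ha
      exact (ih _ (fun i => hw _) _ (hnn a ha)).1
    · refine le_trans ?_ (sum_pow_upper hw0 hS _ _ H hfl)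
      gcongr with a ha
      exact (ih _ (fun i => hw _) _ (hnn a ha)).2

end Vale.Agent.P021
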