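import Mathlib

/-! Linear algebra and averaging lemmas for the interpolation determinant. -/

namespace Vale.Agent.P021

open Finset MvPolynomial

theorem exists_minor {ρ C : Type*} [Fintype ρ] [DecidableEq ρ] (u : C → ρ → ℂ)
    (hu : Submodule.span ℂ (Set.range u) = ⊤) :
    ∃ c : ρ → C, (Matrix.of fun i j => u (c j) i).det ≠ 0 := by
  obtain ⟨b, hb, hspan, hli⟩ := exists_linearIndependent ℂ (Set.range u)
  let B : Module.Basis b ℂ (ρ → ℂ) := Module.Basis.mk hli (by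
    rw [Subtype.range_coe, hspan, hu])
  let e : ρ ≃ b := (Pi.basisFun ℂ ρ).indexEquiv B
  choose c hc using fun j => hb (e j).2
  refine ⟨c, ?_⟩
  have h1 : LinearIndependent ℂ (Matrix.of fun i j => u (c j) i).col := by
    have : (Matrix.of fun i j => u (c j) i).col = fun j => ((e j : b) : ρ → ℂ) := by
      ext j i
      rw [← hc j]; rfl
    rw [this]
    exact hli.comp e e.injective
  exact ((Matrix.isUnit_iff_isUnit_det _).1 (Matrix.linearIndependent_cols_iff_isUnit.1 h1)).ne_zero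

theorem det_sum_bound {ρ Ω : Type*} [Fintype ρ] [DecidableEq ρ] (s : Finset Ω)
    (γ : ρ → Ω → ℂ) (φ : Ω → ρ → ℂ) (A : ρ → ℝ) (cost u : Ω → ℝ) {X U Γ : ℝ}
    (hA : ∀ r, 0 ≤ A r) (hu : ∀ ξ, 0 ≤ u ξ) (hX0 : 0 ≤ X) (hX : ∀ ξ c, ‖φ ξ c‖ ≤ X)
    (hγ : ∀ r ξ, ‖γ r ξ‖ ≤ A r * (Real.exp (-cost ξ) * u ξ)) (hU : ∑ ξ ∈ s, u ξ ≤ U)
    (hΓ : ∀ ξ : ρ → Ω, Function.Injective ξ → Γ ≤ ∑ r, cost (ξ r)) :
    ‖(Matrix.of fun r c => ∑ ξ ∈ s, γ r ξ * φ ξ c).det‖ ≤
      (Fintype.card ρ).factorial * X ^ Fintype.card ρ * (∏ r, A r) * Real.exp (-Γ)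
        * U ^ Fintype.card ρ := by
  classical
  have h1 : (Matrix.of fun r c => ∑ ξ ∈ s, γ r ξ * φ ξ c).det
      = ∑ ξ ∈ Fintype.piFinset fun _ : ρ => s,
        (∏ r, γ r (ξ r)) * (Matrix.of fun r c => φ (ξ r) c).det := by
    have h2 : (Matrix.of fun r c => ∑ ξ ∈ s, γ r ξ * φ ξ c)
        = fun r => ∑ ξ ∈ s, γ r ξ • φ ξ := by
      ext r c; simp [Finset.sum_apply]
    rw [h2]
    refine ((Matrix.detRowAlternating (n := ρ) (R := ℂ)).toMultilinearMap.map_sum_finset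
      (fun r ξ => γ r ξ • φ ξ) (fun _ => s)).trans (sum_congr rfl fun ξ _ => ?_)
    exact (Matrix.detRowAlternating (n := ρ) (R := ℂ)).toMultilinearMap.map_smul_univ _ _
  have hU0 : 0 ≤ ∑ ξ ∈ s, u ξ := sum_nonneg fun ξ _ => hu ξ
  have hP : 0 ≤ ∏ r, A r := prod_nonneg fun r _ => hA r
  rw [h1]
  calc _ ≤ ∑ ξ ∈ Fintype.piFinset fun _ : ρ => s, ((Fintype.card ρ).factorial * X ^ Fintype.card ρ
          * (∏ r, A r) * Real.exp (-Γ)) * ∏ r, u (ξ r) := by
        refine (norm_sum_le _ _).trans (sum_le_sum fun ξ _ => ?_)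
        have hpu : 0 ≤ ∏ r, u (ξ r) := prod_nonneg fun r _ => hu _
        by_cases hξ : Function.Injective ξ
        · have h3 : ‖(Matrix.of fun r c => φ (ξ r) c).det‖
              ≤ (Fintype.card ρ).factorial * X ^ Fintype.card ρ := by
            simpa using Matrix.det_le (abv := IsAbsoluteValue.toAbsoluteValue (norm : ℂ → ℝ))
              (A := Matrix.of fun r c => φ (ξ r) c) (x := X) fun i j => hX _ _
          have h4 : ‖∏ r, γ r (ξ r)‖ ≤ (∏ r, A r) * Real.exp (-Γ) * ∏ r, u (ξ r) := by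
            rw [norm_prod]
            calc _ ≤ ∏ r, A r * (Real.exp (-cost (ξ r)) * u (ξ r)) :=
                  prod_le_prod (fun r _ => norm_nonneg _) fun r _ => hγ _ _
              _ = (∏ r, A r) * Real.exp (-∑ r, cost (ξ r)) * ∏ r, u (ξ r) := by
                  rw [prod_mul_distrib, prod_mul_distrib, ← Real.exp_sum, sum_neg_distrib,
                    mul_assoc]
              _ ≤ _ := by gcongr; exact hΓ ξ hξ
          rw [norm_mul]
          calc _ ≤ ((∏ r, A r) * Real.exp (-Γ) * ∏ r, u (ξ r))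
                * ((Fintype.card ρ).factorial * X ^ Fintype.card ρ) := by gcongr
            _ = _ := by ring
        · obtain ⟨a, b, hab, hne⟩ := Function.not_injective_iff.1 hξ
          rw [Matrix.det_zero_of_row_eq hne (by ext c; simp [hab]), mul_zero, norm_zero]
          positivity
    _ = ((Fintype.card ρ).factorial * X ^ Fintype.card ρ * (∏ r, A r) * Real.exp (-Γ))
          * (∑ ξ ∈ s, u ξ) ^ Fintype.card ρ := by
        rw [← mul_sum, ← prod_univ_sum (fun _ : ρ => s) (fun _ ξ => u ξ), prod_const, card_univ]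
    _ ≤ _ := by gcongr

theorem cost_lower {ρ Ω : Type*} [Fintype ρ] (cost : Ω → ℝ) (hc : ∀ ξ, 0 ≤ cost ξ) {G δ : ℝ}
    (hG : 0 ≤ G) (S : Finset Ω) (hS : ∀ ξ, cost ξ < G → ξ ∈ S)
    (hcard : (S.card : ℝ) ≤ δ * Fintype.card ρ) (ξ : ρ → Ω) (hξ : Function.Injective ξ) :
    (1 - δ) * Fintype.card ρ * G ≤ ∑ r, cost (ξ r) := by
  classical
  have h1 : (univ.filter fun r => ξ r ∈ S).card ≤ S.card :=
    card_le_card_of_injOn ξ (fun r hr => (mem_filter.1 hr).2) hξ.injOn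
  have h2 := card_filter_add_card_filter_not (s := (univ : Finset ρ)) fun r => ξ r ∈ S
  rw [card_univ] at h2
  have h3 : (1 - δ) * Fintype.card ρ ≤ (univ.filter fun r => ¬ ξ r ∈ S).card := by
    have h4 : ((univ.filter fun r => ξ r ∈ S).card : ℝ) ≤ S.card := by exact_mod_cast h1
    have h5 : ((univ.filter fun r => ξ r ∈ S).card : ℝ)
        + (univ.filter fun r => ¬ ξ r ∈ S).card = Fintype.card ρ := by exact_mod_cast h2
    linarith
  calc _ ≤ ((univ.filter fun r => ¬ ξ r ∈ S).card : ℝ) * G := by gcongr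
    _ = ∑ _r ∈ univ.filter fun r => ¬ ξ r ∈ S, G := by rw [sum_const, nsmul_eq_mul]
    _ ≤ ∑ r ∈ univ.filter fun r => ¬ ξ r ∈ S, cost (ξ r) :=
        sum_le_sum fun r hr => not_lt.1 fun h => (mem_filter.1 hr).2 (hS _ h)
    _ ≤ _ := sum_le_sum_of_subset_of_nonneg (filter_subset _ _) fun r _ _ => hc _

theorem root_orth {N : ℕ} {ζ : ℂ} (hζ : IsPrimitiveRoot ζ N) {x : ℂ} (hx : x ≠ 0) {a b : ℕ}
    (ha : a < N) (hb : b < N) :
    ∑ k : Fin N, (N : ℂ)⁻¹ * ((x * ζ ^ (k : ℕ))⁻¹ ^ a * (x * ζ ^ (k : ℕ)) ^ b)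
      = if b = a then 1 else 0 := by
  have hN : N ≠ 0 := by omega
  have hζ0 : ζ ≠ 0 := hζ.ne_zero hN
  split_ifs with h
  · subst h
    have : ∀ k : Fin N, (x * ζ ^ (k : ℕ))⁻¹ ^ b * (x * ζ ^ (k : ℕ)) ^ b = 1 := fun k => by
      rw [← mul_pow, inv_mul_cancel₀ (mul_ne_zero hx (pow_ne_zero _ hζ0)), one_pow]
    simp only [this, mul_one, sum_const, card_univ, Fintype.card_fin, nsmul_eq_mul]
    exact mul_inv_cancel₀ (Nat.cast_ne_zero.2 hN)
  · set ξ : ℂ := ζ⁻¹ ^ a * ζ ^ b with hξ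
    have h1 : ξ ≠ 1 := by
      intro h2
      apply h
      apply hζ.pow_inj hb ha
      rw [hξ, inv_pow, inv_mul_eq_one₀ (pow_ne_zero _ hζ0)] at h2
      exact h2.symm
    have h2 : ξ ^ N = 1 := by
      rw [hξ, mul_pow, ← pow_mul, ← pow_mul, mul_comm a, mul_comm b, pow_mul, pow_mul, inv_pow,
        hζ.pow_eq_one]
      simp
    have h3 : ∑ k ∈ range N, ξ ^ k = 0 := by
      have := geom_sum_mul ξ N
      rw [h2, sub_self] at this
      exact (mul_eq_zero.1 this).resolve_right (sub_ne_zero.2 h1)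
    have h4 : ∀ k : ℕ, (N : ℂ)⁻¹ * ((x * ζ ^ k)⁻¹ ^ a * (x * ζ ^ k) ^ b)
        = (N : ℂ)⁻¹ * (x⁻¹ ^ a * x ^ b) * ξ ^ k := by
      intro k
      rw [hξ, mul_inv, mul_pow, mul_pow, mul_pow, ← inv_pow ζ, ← pow_mul, ← pow_mul, ← pow_mul,
        ← pow_mul, mul_comm k, mul_comm k]
      ring
    simp only [h4]
    rw [← mul_sum, Fin.sum_univ_eq_sum_range (fun k => ξ ^ k), h3, mul_zero]

/-- Coefficients are averages of values on a torus. -/
theorem exists_avg {σ ρ C : Type} [Fintype σ] [Fintype ρ] [Fintype C] (rad : σ → ℝ)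
    (hrad : ∀ i, 0 < rad i) (e : ρ → σ →₀ ℕ) (p : C → MvPolynomial σ ℂ) :
    ∃ (κ : Type) (_ : Fintype κ) (pt : κ → σ → ℂ) (lam : ρ → κ → ℂ),
      (∀ k i, ‖pt k i‖ = rad i) ∧ (∀ r, ∑ k, ‖lam r k‖ ≤ ∏ i, (rad i)⁻¹ ^ e r i) ∧
      ∀ r c, coeff (e r) (p c) = ∑ k, lam r k * eval (pt k) (p c) := by
  classical
  set S : Finset (σ →₀ ℕ) := univ.image e ∪ univ.biUnion fun c => (p c).support
  set N : ℕ := S.sup (fun d => univ.sup fun i => d i) + 1 with hN
  have hS : ∀ d ∈ S, ∀ i, d i < N := fun d hd i => Nat.lt_succ_of_le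
    (le_trans (le_sup (f := fun i => d i) (mem_univ i))
      (le_sup (f := fun d : σ →₀ ℕ => univ.sup fun i => d i) hd))
  have hζ := Complex.isPrimitiveRoot_exp N (by omega)
  set ζ := Complex.exp (2 * Real.pi * Complex.I / N)
  have hζn : ‖ζ‖ = 1 := hζ.norm'_eq_one (by omega)
  have hpt : ∀ i (k : ℕ), ‖(rad i : ℂ) * ζ ^ k‖ = rad i := fun i k => by
    rw [norm_mul, norm_pow, hζn, one_pow, mul_one, Complex.norm_real, Real.norm_of_nonneg (hrad i).le]
  refine ⟨σ → Fin N, inferInstance, fun k i => rad i * ζ ^ (k i : ℕ),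
    fun r k => ∏ i, (N : ℂ)⁻¹ * (rad i * ζ ^ (k i : ℕ))⁻¹ ^ e r i, fun k i => hpt _ _,
    fun r => le_of_eq ?_, fun r c => ?_⟩
  · simp only [norm_prod, norm_mul, norm_pow, norm_inv, Complex.norm_natCast, hζn, one_pow, mul_one,
      Complex.norm_real]
    rw [sum_const, card_univ, Fintype.card_fun, Fintype.card_fin, prod_mul_distrib, prod_const,
      card_univ, nsmul_eq_mul, Nat.cast_pow, ← mul_assoc, ← mul_pow,
      mul_inv_cancel₀ (by positivity), one_pow, one_mul]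
    exact prod_congr rfl fun i _ => by rw [Real.norm_of_nonneg (hrad i).le]
  · have he : ∀ i, e r i < N := hS _ (mem_union_left _ (mem_image_of_mem _ (mem_univ r)))
    have hp : ∀ d ∈ (p c).support, ∀ i, d i < N := fun d hd =>
      hS _ (mem_union_right _ (mem_biUnion.2 ⟨c, mem_univ _, hd⟩))
    simp only [eval_eq', mul_sum]
    rw [sum_comm]
    have h1 : ∀ d ∈ (p c).support, ∑ k : σ → Fin N,
        (∏ i, (N : ℂ)⁻¹ * (rad i * ζ ^ (k i : ℕ))⁻¹ ^ e r i)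
          * (coeff d (p c) * ∏ i, ((rad i : ℂ) * ζ ^ (k i : ℕ)) ^ d i)
        = if d = e r then coeff d (p c) else 0 := by
      intro d hd
      have h2 : ∀ k : σ → Fin N, (∏ i, (N : ℂ)⁻¹ * (rad i * ζ ^ (k i : ℕ))⁻¹ ^ e r i)
          * (coeff d (p c) * ∏ i, ((rad i : ℂ) * ζ ^ (k i : ℕ)) ^ d i)
          = coeff d (p c) * ∏ i, (N : ℂ)⁻¹ * ((rad i * ζ ^ (k i : ℕ))⁻¹ ^ e r i
            * ((rad i : ℂ) * ζ ^ (k i : ℕ)) ^ d i) := by
        intro k
        rw [mul_left_comm, ← prod_mul_distrib]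
        simp only [mul_assoc]
      simp only [h2]
      rw [← mul_sum, ← Fintype.piFinset_univ, ← prod_univ_sum (fun _ : σ => (univ : Finset (Fin N)))
        (fun i k => (N : ℂ)⁻¹ * ((rad i * ζ ^ (k : ℕ))⁻¹ ^ e r i
            * ((rad i : ℂ) * ζ ^ (k : ℕ)) ^ d i))]
      simp only [fun i => root_orth hζ (Complex.ofReal_ne_zero.2 (hrad i).ne') (he i) (hp d hd i)]
      rw [Fintype.prod_ite_zero]
      simp [Finsupp.ext_iff]
    rw [sum_congr rfl h1, sum_ite_eq']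
    split_ifs with h
    · rfl
    · exact notMem_support_iff.1 h

end Vale.Agent.P021
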