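import Mathlib

/-! Generalized Wronskians, derivative of a determinant, index filtration. -/

namespace Vale.Agent.P021

open Finset

variable {R : Type*} [CommRing R] [Algebra ℂ R] {L : Type*}

/-- Apply a word of derivations (outermost letter first). -/
def app (δ : L → Derivation ℂ R R) : List L → R → R
  | [], f => f
  | a :: l, f => δ a (app δ l f)

@[simp] theorem app_nil (δ : L → Derivation ℂ R R) (f : R) : app δ [] f = f := rfl

@[simp] theorem app_cons (δ : L → Derivation ℂ R R) (a : L) (l : List L) (f : R) :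
    app δ (a :: l) f = δ a (app δ l f) := rfl

theorem app_append (δ : L → Derivation ℂ R R) (l l' : List L) (f : R) :
    app δ (l ++ l') f = app δ l (app δ l' f) := by
  induction l with
  | nil => rfl
  | cons a l ih => simp [ih]

theorem app_add (δ : L → Derivation ℂ R R) (l : List L) (f g : R) :
    app δ l (f + g) = app δ l f + app δ l g := by
  induction l with
  | nil => rfl
  | cons a l ih => simp [ih]

@[simp] theorem app_zero (δ : L → Derivation ℂ R R) (l : List L) : app δ l 0 = 0 := by
  induction l with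
  | nil => rfl
  | cons a l ih => simp [ih]

theorem app_smul (δ : L → Derivation ℂ R R) (l : List L) (c : ℂ) (f : R) :
    app δ l (c • f) = c • app δ l f := by
  induction l with
  | nil => rfl
  | cons a l ih => simp [ih]

theorem app_sum (δ : L → Derivation ℂ R R) (l : List L) {ι : Type*} (s : Finset ι) (f : ι → R) :
    app δ l (∑ i ∈ s, f i) = ∑ i ∈ s, app δ l (f i) := by
  classical
  induction s using Finset.induction_on with
  | empty => simp
  | insert a s ha ih => rw [sum_insert ha, sum_insert ha, app_add, ih]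

theorem app_comm (δ : L → Derivation ℂ R R) (d : Derivation ℂ R R)
    (h : ∀ a f, d (δ a f) = δ a (d f)) (l : List L) (f : R) :
    d (app δ l f) = app δ l (d f) := by
  induction l with
  | nil => rfl
  | cons a l ih => simp [h, ih]

/-- A word all of whose letters kill `g` commutes with multiplication by `g`. -/
theorem app_mul_of_kill (δ : L → Derivation ℂ R R) (l : List L) (g : R)
    (h : ∀ a ∈ l, δ a g = 0) (f : R) : app δ l (f * g) = app δ l f * g := by
  induction l with
  | nil => rfl
  | cons a l ih =>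
    rw [app_cons, ih (fun b hb => h b (List.mem_cons_of_mem _ hb)), Derivation.leibniz,
      h a List.mem_cons_self]
    simp [mul_comm]

theorem deriv_prod (d : Derivation ℂ R R) {ι : Type*} [DecidableEq ι] (s : Finset ι) (f : ι → R) :
    d (∏ i ∈ s, f i) = ∑ l ∈ s, (∏ i ∈ s.erase l, f i) * d (f l) := by
  induction s using Finset.induction_on with
  | empty => simp
  | insert a s ha ih =>
    rw [prod_insert ha, sum_insert ha, Derivation.leibniz, ih, erase_insert ha, smul_eq_mul,
      smul_eq_mul, add_comm, mul_sum]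
    congr 1
    refine sum_congr rfl fun l hl => ?_
    have hne : a ≠ l := fun h => ha (h ▸ hl)
    rw [erase_insert_of_ne hne, prod_insert (fun h => ha (mem_of_mem_erase h)), mul_assoc]

theorem deriv_det (d : Derivation ℂ R R) {n : Type*} [Fintype n] [DecidableEq n]
    (M : Matrix n n R) :
    d M.det = ∑ l, (M.updateCol l (fun i => d (M i l))).det := by
  simp only [Matrix.det_apply, map_sum]
  rw [sum_comm]
  refine sum_congr rfl fun π _ => ?_
  rw [← smul_sum, Units.smul_def, Units.smul_def, map_zsmul, deriv_prod]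
  congr 1
  refine sum_congr rfl fun l _ => ?_
  rw [← prod_erase_mul _ _ (mem_univ l), Matrix.updateCol_self]
  congr 1
  refine prod_congr rfl fun i hi => ?_
  rw [Matrix.updateCol_ne (ne_of_mem_erase hi)]

theorem deriv_det_eq_zero (d : Derivation ℂ R R) {n : Type*} [Fintype n] [DecidableEq n]
    (M : Matrix n n R) (h : ∀ i j, d (M i j) = 0) : d M.det = 0 := by
  rw [deriv_det]
  refine sum_eq_zero fun l _ => Matrix.det_eq_zero_of_column_eq_zero l fun i => ?_
  simp [h]

/-- Generalized Wronskian theorem. -/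
theorem exists_wronskian [IsDomain R] (δ : L → Derivation ℂ R R) (good : L → Prop)
    (bad : Derivation ℂ R R → Prop)
    (hconst : ∀ f g : R, g ≠ 0 → (∀ a, good a → g * δ a f = f * δ a g) →
      (∀ d, bad d → g * d f = f * d g) → ∃ κ : ℂ, f = κ • g) :
    ∀ (s : ℕ) (f : Fin s → R), LinearIndependent ℂ f →
      (∀ d, bad d → ∀ l : List L, (∀ a ∈ l, good a) → ∀ k, d (app δ l (f k)) = 0) →
      ∃ Δ : Fin s → List L, (∀ i, (Δ i).length < s ∧ ∀ a ∈ Δ i, good a) ∧
        (Matrix.of fun i k => app δ (Δ i) (f k)).det ≠ 0 := by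
  intro s
  induction s with
  | zero => intro f _ _; exact ⟨fun _ => [], fun i => i.elim0, by simp⟩
  | succ s ih =>
    intro f hf hbad
    obtain ⟨Δ, hΔ, hW⟩ := ih (fun k => f k.succ) (hf.comp _ (Fin.succ_injective s))
      (fun d hd l hl k => hbad d hd l hl k.succ)
    by_contra hcon
    push Not at hcon
    set c : Fin (s + 1) → R := fun k => (-1) ^ (k : ℕ) *
      (Matrix.of fun i k' => app δ (Δ i) (f (k.succAbove k'))).det with hc
    have hc0 : c 0 = (Matrix.of fun i k => app δ (Δ i) (f k.succ)).det := by simp [hc]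
    have hann : ∀ l : List L, l.length < s + 1 → (∀ a ∈ l, good a) →
        ∑ k, c k * app δ l (f k) = 0 := by
      intro l hl hg
      have h0 := hcon (Fin.cons l Δ) (by
        intro i
        refine Fin.cases ?_ (fun i => ?_) i
        · exact ⟨hl, hg⟩
        · exact ⟨Nat.lt_succ_of_lt (hΔ i).1, (hΔ i).2⟩)
      rw [Matrix.det_succ_row_zero] at h0
      rw [← h0]
      refine sum_congr rfl fun k _ => ?_
      simp only [hc, Matrix.of_apply, Fin.cons_zero]
      have : (Matrix.of fun i k => app δ (Fin.cons (α := fun _ => List L) l Δ i) (f k)).submatrix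
          Fin.succ k.succAbove = Matrix.of fun i k' => app δ (Δ i) (f (k.succAbove k')) := by
        ext i j; simp
      rw [this]; ring
    have hder : ∀ d : Derivation ℂ R R, (∀ i, ∑ k, c k * d (app δ (Δ i) (f k)) = 0) →
        ∀ k, c 0 * d (c k) = c k * d (c 0) := by
      intro d hd
      have h1 : ∀ i, ∑ k, d (c k) * app δ (Δ i) (f k) = 0 := by
        intro i
        have h2 := congrArg d (hann (Δ i) (Nat.lt_succ_of_lt (hΔ i).1) (hΔ i).2)
        simp only [map_sum, Derivation.leibniz, smul_eq_mul, map_zero, sum_add_distrib, hd i,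
          zero_add] at h2
        rw [← h2]; exact sum_congr rfl fun k _ => mul_comm _ _
      have h3 : (Matrix.of fun i (k : Fin s) => app δ (Δ i) (f k.succ)).mulVec
          (fun k : Fin s => c 0 * d (c k.succ) - c k.succ * d (c 0)) = 0 := by
        ext i
        have h4 := h1 i
        have h5 := hann (Δ i) (Nat.lt_succ_of_lt (hΔ i).1) (hΔ i).2
        rw [Fin.sum_univ_succ] at h4 h5
        simp only [Matrix.mulVec, dotProduct, Matrix.of_apply, Pi.zero_apply]
        have h6 : ∑ k : Fin s, app δ (Δ i) (f k.succ) * (c 0 * d (c k.succ) - c k.succ * d (c 0))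
            = c 0 * (∑ k : Fin s, d (c k.succ) * app δ (Δ i) (f k.succ))
              - d (c 0) * ∑ k : Fin s, c k.succ * app δ (Δ i) (f k.succ) := by
          rw [mul_sum, mul_sum, ← sum_sub_distrib]
          exact sum_congr rfl fun k _ => by ring
        rw [h6, eq_neg_of_add_eq_zero_right h4, eq_neg_of_add_eq_zero_right h5]
        ring
      have h7 := Matrix.eq_zero_of_mulVec_eq_zero hW h3
      intro k
      refine Fin.cases rfl (fun k => ?_) k
      exact sub_eq_zero.1 (congrFun h7 k)
    have hc0' : c 0 ≠ 0 := hc0 ▸ hW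
    have hκ : ∀ k, ∃ κ : ℂ, c k = κ • c 0 := fun k =>
      hconst (c k) (c 0) hc0'
        (fun a ha => hder (δ a) (fun i => hann (a :: Δ i) (by simpa using (hΔ i).1)
          (by
            intro b hb
            rcases List.mem_cons.1 hb with rfl | hb
            · exact ha
            · exact (hΔ i).2 b hb)) k)
        (fun d hd => hder d (fun i => sum_eq_zero fun k _ => by
          rw [hbad d hd _ (hΔ i).2, mul_zero]) k)
    choose κ hκ using hκ
    have h8 := hann [] (by simp) (by simp)
    have h9 : c 0 * ∑ k, κ k • f k = 0 := by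
      rw [← h8, mul_sum]
      refine sum_congr rfl fun k _ => ?_
      rw [hκ k, app_nil, smul_mul_assoc, mul_smul_comm]
    have h10 := Fintype.linearIndependent_iff.1 hf κ ((mul_eq_zero.1 h9).resolve_left hc0') 0
    have h11 := hκ 0
    rw [h10, zero_smul] at h11
    exact hc0' h11

/-- Weight of a word. -/
def wwt (v : L → ℝ) (l : List L) : ℝ := (l.map v).sum

theorem wwt_append (v : L → ℝ) (l l' : List L) : wwt v (l ++ l') = wwt v l + wwt v l' := by
  simp [wwt]

theorem wwt_nonneg {v : L → ℝ} (hv : ∀ a, 0 ≤ v a) (l : List L) : 0 ≤ wwt v l :=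
  List.sum_nonneg (by simp [hv])

theorem wwt_le {v : L → ℝ} {x : ℝ} (l : List L) (h : ∀ a ∈ l, v a ≤ x) :
    wwt v l ≤ l.length * x := by
  induction l with
  | nil => simp [wwt]
  | cons a l ih =>
    have h1 := ih fun b hb => h b (List.mem_cons_of_mem _ hb)
    have h2 := h a List.mem_cons_self
    simp only [wwt, List.map_cons, List.sum_cons, List.length_cons] at h1 ⊢
    push_cast; linarith

/-- All words of weight below `τ` send `f` into `p`. -/
def Idx (δ : L → Derivation ℂ R R) (v : L → ℝ) (p : Ideal R) (τ : ℝ) (f : R) : Prop :=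
  ∀ l : List L, wwt v l < τ → app δ l f ∈ p

variable {δ : L → Derivation ℂ R R} {v : L → ℝ} {p : Ideal R}

theorem Idx.mono {τ τ' : ℝ} {f : R} (h : Idx δ v p τ f) (hτ : τ' ≤ τ) : Idx δ v p τ' f :=
  fun l hl => h l (lt_of_lt_of_le hl hτ)

theorem Idx.app {τ : ℝ} {f : R} (h : Idx δ v p τ f) (l : List L) :
    Idx δ v p (τ - wwt v l) (app δ l f) := by
  intro l' hl'
  rw [← app_append]
  exact h _ (by rw [wwt_append]; linarith)

theorem Idx.of_nonpos (hv : ∀ a, 0 ≤ v a) {τ : ℝ} (hτ : τ ≤ 0) (f : R) : Idx δ v p τ f :=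
  fun l hl => absurd (lt_of_lt_of_le hl hτ) (not_lt.2 (wwt_nonneg hv l))

theorem Idx.mul {τ τ' : ℝ} {f g : R} (hf : Idx δ v p τ f) (hg : Idx δ v p τ' g) :
    Idx δ v p (τ + τ') (f * g) := by
  intro l
  induction l using List.reverseRecOn generalizing τ τ' f g with
  | nil =>
    intro hl
    have h0 : wwt v ([] : List L) = 0 := rfl
    rw [h0] at hl
    by_cases h : 0 < τ
    · exact p.mul_mem_right _ (hf [] h)
    · exact p.mul_mem_left _ (hg [] (by rw [h0]; linarith))
  | append_singleton l a ih =>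
    intro hl
    rw [wwt_append] at hl
    have h1 := hf.app [a]
    have h2 := hg.app [a]
    rw [app_append, app_cons, app_nil, Derivation.leibniz, app_add, smul_eq_mul, smul_eq_mul]
    refine add_mem (ih hf h2 (by linarith)) ?_
    rw [mul_comm]
    exact ih h1 hg (by linarith)

theorem Idx.prod (hv : ∀ a, 0 ≤ v a) {ι : Type*} (s : Finset ι) (τ : ι → ℝ) (f : ι → R)
    (h : ∀ i ∈ s, Idx δ v p (τ i) (f i)) : Idx δ v p (∑ i ∈ s, τ i) (∏ i ∈ s, f i) := by
  classical
  induction s using Finset.induction_on with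
  | empty => exact Idx.of_nonpos hv (by simp) _
  | insert a s ha ih =>
    rw [sum_insert ha, prod_insert ha]
    exact (h a (mem_insert_self _ _)).mul (ih fun i hi => h i (mem_insert_of_mem hi))

theorem Idx.det (hv : ∀ a, 0 ≤ v a) {n : Type*} [Fintype n] [DecidableEq n] (M : Matrix n n R)
    (τ : n → ℝ) (h : ∀ i j, Idx δ v p (τ j) (M i j)) : Idx δ v p (∑ j, τ j) M.det := by
  intro l hl
  rw [Matrix.det_apply, app_sum]
  refine p.sum_mem fun π _ => ?_
  have h1 := Idx.prod hv univ τ (fun j => M (π j) j) (fun j _ => h _ _) l hl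
  rcases Int.units_eq_one_or (Equiv.Perm.sign π) with h2 | h2
  · rw [h2, one_smul]; exact h1
  · rw [h2, Units.neg_smul, one_smul, ← neg_one_smul ℂ, app_smul, neg_one_smul]
    exact p.neg_mem h1

/-- The index of a Roth determinant. -/
theorem idx_roth (hv : ∀ a, 0 ≤ v a) {τ N θ : ℝ} (hτ : 0 < τ) (hN : 0 < N) (hθ : 0 < θ)
    (hτθ : τ * θ ≤ 4) {F : R} (hF : Idx δ v p (τ * N) F) (k : L) (s : ℕ)
    (hs : (s : ℝ) * (v k * θ) ≤ N) (Δ : Fin (s + 1) → List L)
    (hΔ : ∀ i, wwt v (Δ i) ≤ τ * N / 2) :
    Idx δ v p (τ ^ 2 * θ / 32 * ((s + 1) * N))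
      (Matrix.of fun (i j : Fin (s + 1)) => app δ (Δ i) (app δ (List.replicate j k) F)).det := by
  classical
  set x : ℝ := τ * θ * s / 4 with hx
  have hx0 : 0 ≤ x := by positivity
  have h1 := Idx.det (δ := δ) (p := p) hv
    (Matrix.of fun (i j : Fin (s + 1)) => app δ (Δ i) (app δ (List.replicate j k) F))
    (fun j => if (j : ℕ) ≤ ⌊x⌋₊ then τ * N / 4 else 0) (by
      intro i j
      split_ifs with hj
      · refine ((hF.app (List.replicate j k)).app (Δ i)).mono ?_
        have h2 : wwt v (List.replicate (j : ℕ) k) = (j : ℕ) * v k := by simp [wwt]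
        have h3 : ((j : ℕ) : ℝ) ≤ x := le_trans (by exact_mod_cast hj) (Nat.floor_le hx0)
        have h4 : ((j : ℕ) : ℝ) * v k ≤ τ * N / 4 := by
          calc ((j : ℕ) : ℝ) * v k ≤ x * v k := by gcongr; exact hv k
            _ = τ / 4 * (s * (v k * θ)) := by rw [hx]; ring
            _ ≤ τ / 4 * N := by gcongr
            _ = τ * N / 4 := by ring
        have := hΔ i
        rw [h2]; linarith
      · exact Idx.of_nonpos hv le_rfl _)
  refine h1.mono ?_
  have hxs : ⌊x⌋₊ ≤ s := by
    apply Nat.floor_le_of_le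
    rw [hx]
    have : (0 : ℝ) ≤ s := Nat.cast_nonneg s
    nlinarith
  have h5 : ∑ j : Fin (s + 1), (if (j : ℕ) ≤ ⌊x⌋₊ then τ * N / 4 else 0)
      = (⌊x⌋₊ + 1 : ℕ) * (τ * N / 4) := by
    rw [Fin.sum_univ_eq_sum_range (fun j => if j ≤ ⌊x⌋₊ then τ * N / 4 else 0), ← sum_filter,
      sum_const, nsmul_eq_mul]
    congr 2
    have : (range (s + 1)).filter (fun j => j ≤ ⌊x⌋₊) = range (⌊x⌋₊ + 1) := by
      ext j; simp; omega
    rw [this, card_range]
  rw [h5]
  have h6 : x < (⌊x⌋₊ + 1 : ℕ) := by push_cast; exact Nat.lt_floor_add_one x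
  have h7 : (1 : ℝ) ≤ (⌊x⌋₊ + 1 : ℕ) := by exact_mod_cast Nat.le_add_left 1 _
  have h8 : τ * θ * (s + 1) / 8 ≤ (⌊x⌋₊ + 1 : ℕ) := by
    have : τ * θ * (s + 1) / 8 = x / 2 + τ * θ / 8 := by rw [hx]; ring
    rw [this]; linarith
  calc τ ^ 2 * θ / 32 * ((s + 1) * N) = τ * θ * (s + 1) / 8 * (τ * N / 4) := by ring
    _ ≤ _ := by gcongr

end Vale.Agent.P021
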