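import Vale.Agent.P021.Basic
import Vale.Agent.P021.Wronsk

/-! Two versions of Roth's lemma. -/

namespace Vale.Agent.P021

open Finset MvPolynomial

section Abstract

variable {R : Type*} [CommRing R] [Algebra ℂ R] {L : Type*}

theorem app_rep_add (δ : L → Derivation ℂ R R) (a : L) (x y : ℕ) (f : R) :
    app δ (List.replicate (x + y) a) f
      = app δ (List.replicate x a) (app δ (List.replicate y a) f) := by
  rw [List.replicate_add, app_append]

theorem linearIndependent_rep (δ : L → Derivation ℂ R R) (a : L) (s : ℕ) (f : R)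
    (h0 : app δ (List.replicate s a) f ≠ 0) (h1 : app δ (List.replicate (s + 1) a) f = 0) :
    LinearIndependent ℂ fun l : Fin (s + 1) => app δ (List.replicate l a) f := by
  rw [Fintype.linearIndependent_iff]
  intro c hc
  have key : ∀ n : ℕ, ∀ l : Fin (s + 1), (l : ℕ) = n → c l = 0 := by
    intro n
    induction n using Nat.strong_induction_on with
    | _ n ih =>
      intro l hl
      have h2 := congrArg (app δ (List.replicate (s - n) a)) hc
      rw [app_sum, app_zero, sum_eq_single l] at h2
      · rw [app_smul, ← app_rep_add, show s - n + (l : ℕ) = s by omega] at h2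
        by_contra hcl
        apply h0
        have := congrArg (fun x => (c l)⁻¹ • x) h2
        simpa [smul_smul, inv_mul_cancel₀ hcl] using this
      · intro b _ hb
        rcases lt_or_gt_of_ne (fun h : (b : ℕ) = n => hb (Fin.ext (h.trans hl.symm))) with h | h
        · rw [ih b h b rfl, zero_smul, app_zero]
        · rw [app_smul, ← app_rep_add,
            show s - n + (b : ℕ) = (s - n + (b : ℕ) - (s + 1)) + (s + 1) by omega, app_rep_add, h1,
            app_zero, smul_zero]
      · simp
  exact fun l => key l l rfl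

theorem decomp_reduce (B : Submodule ℂ R) {n : ℕ} (φ ψ : Fin (n + 1) → R) (hψ : ∀ l, ψ l ∈ B)
    (h : ¬ LinearIndependent ℂ φ) : ∃ (l0 : Fin (n + 1)) (ψ' : Fin n → R), (∀ l, ψ' l ∈ B) ∧
      ∑ l, φ l * ψ l = ∑ l, φ (l0.succAbove l) * ψ' l := by
  obtain ⟨c, hc, l0, hl0⟩ := Fintype.not_linearIndependent_iff.1 h
  refine ⟨l0, fun l => ψ (l0.succAbove l) - (c (l0.succAbove l) / c l0) • ψ l0,
    fun l => sub_mem (hψ _) (B.smul_mem _ (hψ _)), ?_⟩
  have h1 : ∑ l, φ l * ψ l = ∑ l, φ l * (ψ l - (c l / c l0) • ψ l0) := by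
    have h2 : ∑ l, φ l * ((c l / c l0) • ψ l0) = (c l0)⁻¹ • ((∑ l, c l • φ l) * ψ l0) := by
      rw [sum_mul, smul_sum]
      refine sum_congr rfl fun l _ => ?_
      rw [mul_smul_comm, smul_mul_assoc, smul_smul, div_eq_inv_mul]
    simp only [mul_sub, sum_sub_distrib, h2, hc, zero_mul, smul_zero, sub_zero]
  rw [h1, Fin.sum_univ_succAbove _ l0, div_self hl0, one_smul, sub_self, mul_zero, zero_add]

theorem decomp_min (B1 B2 : Submodule ℂ R) : ∀ (n : ℕ) (φ ψ : Fin n → R), (∀ l, φ l ∈ B1) →
    (∀ l, ψ l ∈ B2) → ∃ s ≤ n, ∃ φ' ψ' : Fin s → R, (∀ l, φ' l ∈ B1) ∧ (∀ l, ψ' l ∈ B2) ∧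
      LinearIndependent ℂ φ' ∧ LinearIndependent ℂ ψ' ∧ ∑ l, φ l * ψ l = ∑ l, φ' l * ψ' l := by
  intro n
  induction n with
  | zero =>
    intro φ ψ h1 h2
    exact ⟨0, le_rfl, φ, ψ, h1, h2, linearIndependent_empty_type, linearIndependent_empty_type, rfl⟩
  | succ n ih =>
    intro φ ψ h1 h2
    by_cases hφ : LinearIndependent ℂ φ
    · by_cases hψ : LinearIndependent ℂ ψ
      · exact ⟨n + 1, le_rfl, φ, ψ, h1, h2, hφ, hψ, rfl⟩
      · obtain ⟨l0, φ', hφ', he⟩ := decomp_reduce B1 ψ φ h1 hψ
        obtain ⟨s, hs, a, b, h3, h4, h5, h6, h7⟩ := ih φ' (fun l => ψ (l0.succAbove l)) hφ'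
          (fun l => h2 _)
        refine ⟨s, by omega, a, b, h3, h4, h5, h6, ?_⟩
        rw [← h7]
        simpa only [mul_comm] using he
    · obtain ⟨l0, ψ', hψ', he⟩ := decomp_reduce B2 φ ψ h2 hφ
      obtain ⟨s, hs, a, b, h3, h4, h5, h6, h7⟩ := ih (fun l => φ (l0.succAbove l)) ψ'
        (fun l => h1 _) hψ'
      exact ⟨s, by omega, a, b, h3, h4, h5, h6, he.trans h7⟩

/-- Words in one letter with nonzero determinant: the standard Wronskian is nonzero. -/
theorem det_rep_ne_zero (δ : L → Derivation ℂ R R) (a : L) {s : ℕ} (f : Fin s → R)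
    (Δ : Fin s → List L) (hΔ : ∀ i, (Δ i).length < s ∧ ∀ b ∈ Δ i, b = a)
    (h : (Matrix.of fun i k => app δ (Δ i) (f k)).det ≠ 0) :
    (Matrix.of fun (i : Fin s) k => app δ (List.replicate i a) (f k)).det ≠ 0 := by
  let e : Fin s → Fin s := fun i => ⟨(Δ i).length, (hΔ i).1⟩
  have hrep : ∀ i, Δ i = List.replicate (e i) a := fun i => List.eq_replicate_iff.2 ⟨rfl, (hΔ i).2⟩
  have hinj : Function.Injective e := by
    intro i j hij
    by_contra hne
    apply h
    refine Matrix.det_zero_of_row_eq hne ?_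
    ext k
    simp only [Matrix.of_apply]
    rw [hrep i, hrep j, hij]
  let π : Equiv.Perm (Fin s) := Equiv.ofBijective e (Finite.injective_iff_bijective.1 hinj)
  intro h0
  apply h
  have : (Matrix.of fun i k => app δ (Δ i) (f k))
      = (Matrix.of fun (i : Fin s) k => app δ (List.replicate i a) (f k)).submatrix π id := by
    ext i k
    simp only [Matrix.of_apply, Matrix.submatrix_apply, id]
    rw [hrep i]; rfl
  rw [this, Matrix.det_permute, h0, mul_zero]

end Abstract

variable {m : ℕ}

/-- The polynomial ring in `Y` (index `none`) and `x_i`. -/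
abbrev AA (m : ℕ) := MvPolynomial (Option (Fin m)) ℂ

/-- Letters: `D` and the partial derivatives in the `x_i`. -/
noncomputable def δT : Option (Fin m) → Derivation ℂ (AA m) (AA m) :=
  fun o => Option.casesOn o DD fun i => pderiv (some i)

/-- Letters: the partial derivatives in the `x_i`. -/
noncomputable def δC : Fin m → Derivation ℂ (AA m) (AA m) := fun i => pderiv (some i)

theorem pderiv_δT (i : Fin m) (a : Option (Fin m)) (f : AA m) :
    pderiv (some i) (δT a f) = δT a (pderiv (some i) f) := by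
  cases a with
  | none => exact pderiv_DD i f
  | some j => exact pderiv_comm _ _ f

theorem pderiv_δC (o : Option (Fin m)) (a : Fin m) (f : AA m) :
    pderiv o (δC a f) = δC a (pderiv o f) := pderiv_comm _ _ f

theorem Fil_app {L : Type*} {δ : L → Derivation ℂ (AA m) (AA m)} {w : Option (Fin m) → ℝ}
    (hδ : ∀ a c f, f ∈ Fil w c → δ a f ∈ Fil w c) (l : List L) {c : ℝ} {f : AA m}
    (hf : f ∈ Fil w c) : app δ l f ∈ Fil w c := by
  induction l with
  | nil => exact hf
  | cons a l ih => exact hδ _ _ _ ih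

theorem Fil_δT {w : Option (Fin m) → ℝ} (hw : ∀ o, 0 ≤ w o) (a : Option (Fin m)) (c : ℝ)
    (f : AA m) (hf : f ∈ Fil w c) : δT a f ∈ Fil w c := by
  cases a with
  | none => exact Fil_DD hw hf
  | some j => exact Fil_mono (Fil_pderiv hf _) (by linarith [hw (some j)])

theorem Fil_δC {w : Option (Fin m) → ℝ} (hw : ∀ o, 0 ≤ w o) (a : Fin m) (c : ℝ)
    (f : AA m) (hf : f ∈ Fil w c) : δC a f ∈ Fil w c :=
  Fil_mono (Fil_pderiv hf _) (by linarith [hw (some a)])

theorem roth_twisted {θ : ℝ} (hθ : 0 < θ) (hθ1 : θ ≤ 1) (k : ℕ) :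
    ∀ τ : ℝ, 0 < τ → τ ≤ 1 → ∃ η : ℝ, 0 < η ∧ ∀ w v : Option (Fin m) → ℝ, (∀ o, 0 < w o) →
      (∀ o, 0 ≤ v o) → (∀ i, v (some i) * θ = w (some i)) → (∀ i, v none ≤ η * w (some i)) →
      (∀ i j, i < j → v (some i) ≤ η * w (some j)) → ∀ p : Ideal (AA m), p.IsPrime →
      ∀ N : ℝ, 0 < N → ∀ F : AA m, F ≠ 0 → F ∈ Fil w N →
      (∀ i : Fin m, k ≤ i → pderiv (some i) F = 0) → Idx δT v p (τ * N) F →
      ∃ c : ℂ, X none - C c ∈ p := by
  induction k with
  | zero =>
    intro τ hτ _
    refine ⟨1, one_pos, fun w v _ _ _ _ _ p hp N hN F hF _ hfree hI => ?_⟩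
    refine exists_X_sub_C_mem hF (fun o ho => ?_) hp (hI [] (mul_pos hτ hN))
    cases o with
    | none => exact absurd rfl ho
    | some i => exact hfree i (Nat.zero_le _)
  | succ k ih =>
    intro τ hτ hτ1
    by_cases hk : k < m
    swap
    · obtain ⟨η, hη, h⟩ := ih τ hτ hτ1
      exact ⟨η, hη, fun w v h1 h2 h3 h4 h5 p hp N hN F hF hFN _ hI =>
        h w v h1 h2 h3 h4 h5 p hp N hN F hF hFN (fun i hi => absurd i.2 (by omega)) hI⟩
    obtain ⟨η, hη, h⟩ := ih (τ ^ 2 * θ / 32) (by positivity)
      (by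
        have : τ ^ 2 * θ ≤ 1 := mul_le_one₀ (pow_le_one₀ hτ.le hτ1) hθ.le hθ1
        linarith)
    refine ⟨min η (τ / 2), lt_min hη (by linarith),
      fun w v hw hv hvw h4 h5 p hp N hN F hF hFN hfree hI => ?_⟩
    set kk : Fin m := ⟨k, hk⟩
    have hw' : ∀ o, 0 ≤ w o := fun o => (hw o).le
    have hrep : ∀ n : ℕ, app δT (List.replicate n (some kk)) F ∈ Fil w (N - n * w (some kk)) := by
      intro n
      induction n with
      | zero => simpa using hFN
      | succ n ihn =>
        rw [List.replicate_succ, app_cons]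
        exact Fil_mono (Fil_pderiv ihn (some kk)) (by push_cast; linarith)
    have hex : ∃ n : ℕ, app δT (List.replicate n (some kk)) F = 0 := by
      obtain ⟨n, hn⟩ := exists_nat_gt (N / w (some kk))
      rw [div_lt_iff₀ (hw _)] at hn
      exact ⟨n, eq_zero_of_mem_Fil hw' (hrep n) (by linarith)⟩
    classical
    obtain ⟨s, hs⟩ : ∃ s, Nat.find hex = s + 1 := Nat.exists_eq_succ_of_ne_zero (by
      intro h0
      have := Nat.find_spec hex
      rw [h0] at this
      exact hF this)
    have hs1 : app δT (List.replicate (s + 1) (some kk)) F = 0 := hs ▸ Nat.find_spec hex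
    have hs0 : app δT (List.replicate s (some kk)) F ≠ 0 := Nat.find_min hex (by omega)
    have hsN : (s : ℝ) * w (some kk) ≤ N := by
      by_contra hcon
      exact hs0 (eq_zero_of_mem_Fil hw' (hrep s) (by linarith))
    have hkill : ∀ i : Fin m, kk < i → ∀ (l : List (Option (Fin m))) (n : ℕ),
        pderiv (some i) (app δT l (app δT (List.replicate n (some kk)) F)) = 0 := by
      intro i hi l n
      rw [app_comm δT _ (pderiv_δT i), app_comm δT _ (pderiv_δT i), hfree i hi, app_zero, app_zero]
    obtain ⟨Δ, hΔ, hW⟩ := exists_wronskian δT (fun o => ∀ i, o = some i → i < kk)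
      (fun d => ∃ i, kk < i ∧ d = pderiv (some i))
      (fun f g hg h1 h2 => constants kk f g hg (h1 none (by simp)) (fun i hi => by
        rcases lt_or_gt_of_ne hi with h3 | h3
        · exact h1 (some i) (by rintro j hj; cases hj; exact h3)
        · exact h2 _ ⟨i, h3, rfl⟩))
      (s + 1) _ (linearIndependent_rep δT (some kk) s F hs0 hs1)
      (by rintro d ⟨i, hi, rfl⟩ l _ n; exact hkill i hi l n)
    have hwk := hw (some kk)
    refine h w v hw hv hvw (fun i => (h4 i).trans (by gcongr; exacts [hw' _, min_le_left _ _]))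
      (fun i j hij => (h5 i j hij).trans (by gcongr; exacts [hw' _, min_le_left _ _])) p hp
      ((s + 1) * N) (by positivity) _ hW ?_ ?_ ?_
    · simpa using Fil_det (c := N) (Matrix.of fun (i j : Fin (s + 1)) =>
        app δT (Δ i) (app δT (List.replicate j (some kk)) F)) fun i j =>
        Fil_app (Fil_δT hw') _ (Fil_app (Fil_δT hw') _ hFN)
    · intro i hi
      rcases lt_or_eq_of_le (show kk ≤ i from hi) with h6 | h6
      · exact deriv_det_eq_zero _ _ fun a b => hkill i h6 _ _
      · subst h6
        rw [deriv_det]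
        refine sum_eq_zero fun l _ => ?_
        have hcol : ∀ a : Fin (s + 1), pderiv (some kk)
            (app δT (Δ a) (app δT (List.replicate l (some kk)) F))
            = app δT (Δ a) (app δT (List.replicate (l + 1) (some kk)) F) := by
          intro a
          rw [app_comm δT _ (pderiv_δT kk), List.replicate_succ, app_cons]; rfl
        by_cases hl : (l : ℕ) = s
        · refine Matrix.det_eq_zero_of_column_eq_zero l fun a => ?_
          rw [Matrix.updateCol_self, Matrix.of_apply, hcol, hl, hs1, app_zero]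
        · have hl' : (l : ℕ) + 1 < s + 1 := by omega
          have hne : l ≠ ⟨l + 1, hl'⟩ := by intro h7; have := congrArg Fin.val h7; simp at this
          refine Matrix.det_zero_of_column_eq hne fun a => ?_
          rw [Matrix.updateCol_self, Matrix.updateCol_ne hne.symm, Matrix.of_apply, hcol,
            Matrix.of_apply]
    · refine idx_roth hv hτ hN hθ (by nlinarith) hI (some kk) s (by rw [hvw]; exact hsN) Δ ?_
      intro i
      have h6 := wwt_le (v := v) (x := τ / 2 * w (some kk)) (Δ i) (fun a ha => by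
        have h7 : min η (τ / 2) * w (some kk) ≤ τ / 2 * w (some kk) := by
          gcongr; exact min_le_right _ _
        cases a with
        | none => exact (h4 kk).trans h7
        | some j => exact (h5 j kk ((hΔ i).2 _ ha j rfl)).trans h7)
      have h8 : ((Δ i).length : ℝ) ≤ s := by exact_mod_cast Nat.lt_succ_iff.1 (hΔ i).1
      calc wwt v (Δ i) ≤ s * (τ / 2 * w (some kk)) := h6.trans (by gcongr)
        _ = τ / 2 * (s * w (some kk)) := by ring
        _ ≤ τ / 2 * N := by gcongr
        _ = τ * N / 2 := by ring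

theorem constants' (k : Fin m) (f g : AA m) (hg : g ≠ 0)
    (h : ∀ o, g * pderiv o f = f * pderiv o g) : ∃ κ : ℂ, f = κ • g := by
  refine constants k f g hg ?_ fun i _ => h _
  rw [DD_eq, DD_eq, mul_add, mul_add, mul_sum, mul_sum, mul_left_comm, h, mul_left_comm]
  simp only [h]

/-- Polynomials killed by a set of partial derivatives. -/
def Ker (S : Option (Fin m) → Prop) : Submodule ℂ (AA m) where
  carrier := {f | ∀ o, S o → pderiv o f = 0}
  add_mem' := fun {a b} ha hb o ho => by rw [map_add, ha o ho, hb o ho, add_zero]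
  zero_mem' := fun o _ => map_zero _
  smul_mem' := fun r f hf o ho => by rw [Derivation.map_smul, hf o ho, smul_zero]

theorem roth_classical {θ : ℝ} (hθ : 0 < θ) (hθ1 : θ ≤ 1) (k : ℕ) :
    ∀ τ : ℝ, 0 < τ → τ ≤ 1 → ∃ η : ℝ, 0 < η ∧ ∀ (w : Option (Fin m) → ℝ) (v : Fin m → ℝ),
      (∀ o, 0 < w o) → (∀ o, 0 ≤ v o) → (∀ i, v i * θ = w (some i)) →
      (∀ i j, i < j → v i ≤ η * w (some j)) → ∀ p : Ideal (AA m), p.IsPrime →
      (∀ i c, X (some i) - C c ∉ p) →
      ∀ N : ℝ, 0 < N → ∀ F : AA m, F ≠ 0 → F ∈ Fil w N → pderiv none F = 0 →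
      (∀ i : Fin m, k ≤ i → pderiv (some i) F = 0) → ¬ Idx δC v p (τ * N) F := by
  induction k with
  | zero =>
    intro τ hτ _
    refine ⟨1, one_pos, fun w v _ _ _ _ p hp _ N hN F hF _ hfree0 hfree hI => ?_⟩
    have h1 : F ∈ p := hI [] (mul_pos hτ hN)
    have h2 := eq_monomial_of_support_subset_singleton (φ := F) (d₀ := 0) (fun e he => by
      ext o
      cases o with
      | none => exact pderiv_eq_zero_iff.1 hfree0 e he
      | some i => exact pderiv_eq_zero_iff.1 (hfree i (Nat.zero_le _)) e he)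
    have h3 : coeff 0 F ≠ 0 := by intro h; rw [h, monomial_zero] at h2; exact hF h2
    rw [h2] at h1
    exact hp.ne_top (p.eq_top_of_isUnit_mem h1 ((Ne.isUnit h3).map C))
  | succ k ih =>
    intro τ hτ hτ1
    by_cases hk : k < m
    swap
    · obtain ⟨η, hη, h⟩ := ih τ hτ hτ1
      exact ⟨η, hη, fun w v h1 h2 h3 h5 p hp hpc N hN F hF hFN h0 _ hI =>
        h w v h1 h2 h3 h5 p hp hpc N hN F hF hFN h0 (fun i hi => absurd i.2 (by omega)) hI⟩
    obtain ⟨η, hη, h⟩ := ih (τ ^ 2 * θ / 32) (by positivity)
      (by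
        have : τ ^ 2 * θ ≤ 1 := mul_le_one₀ (pow_le_one₀ hτ.le hτ1) hθ.le hθ1
        linarith)
    refine ⟨min η (τ / 2), lt_min hη (by linarith),
      fun w v hw hv hvw h5 p hp hpc N hN F hF hFN hfree0 hfree hI => ?_⟩
    set kk : Fin m := ⟨k, hk⟩
    have hw' : ∀ o, 0 ≤ w o := fun o => (hw o).le
    have hwk := hw (some kk)
    classical
    set S1 : Option (Fin m) → Prop := fun o => ∀ i, o = some i → kk ≤ i with hS1
    set S2 : Option (Fin m) → Prop := fun o => o ≠ some kk with hS2
    set n : ℕ := ⌊N / w (some kk)⌋₊ + 1 with hn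
    obtain ⟨s0, hs0, φ, ψ, hφ, hψ, hφi, hψi, hsum⟩ := decomp_min (Fil w N ⊓ Ker S1) (Ker S2) n
      (fun l => ∑ e ∈ F.support with e (some kk) = (l : ℕ),
        monomial (e.erase (some kk)) (coeff e F))
      (fun l => X (some kk) ^ (l : ℕ))
      (fun l => Submodule.sum_mem _ fun e he => by
        have he' := (mem_filter.1 he).1
        refine ⟨monomial_mem_Fil _ _ (le_trans ?_ (mem_Fil'.1 hFN e he')), fun o ho => ?_⟩
        · conv_rhs => rw [← Finsupp.erase_add_single (some kk) e, wt_add, wt_single]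
          have : 0 ≤ w (some kk) * e (some kk) := by positivity
          linarith
        · refine pderiv_eq_zero_iff.2 fun e' he'' => ?_
          have h6 := Finset.mem_singleton.1 (support_monomial_subset he'')
          rw [h6]
          by_cases h7 : o = some kk
          · rw [h7, Finsupp.erase_same]
          · rw [Finsupp.erase_ne h7]
            cases o with
            | none => exact pderiv_eq_zero_iff.1 hfree0 e he'
            | some i =>
              have h8 : kk < i := lt_of_le_of_ne (ho i rfl) (fun h9 => h7 (by rw [h9]))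
              exact pderiv_eq_zero_iff.1 (hfree i h8) e he')
      (fun l o ho => by rw [pderiv_pow, pderiv_X_of_ne (Ne.symm ho), mul_zero])
    have hFsum : F = ∑ l, φ l * ψ l := by
      rw [← hsum, Fin.sum_univ_eq_sum_range (fun l => (∑ e ∈ F.support with e (some kk) = l,
        monomial (e.erase (some kk)) (coeff e F)) * X (some kk) ^ l)]
      conv_lhs => rw [F.as_sum]
      rw [← sum_fiberwise_of_maps_to (s := F.support) (t := range n) (g := fun e => e (some kk))]
      · refine sum_congr rfl fun l _ => ?_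
        rw [sum_mul]
        refine sum_congr rfl fun e he => ?_
        rw [← (mem_filter.1 he).2, X_pow_eq_monomial, monomial_mul, mul_one,
          Finsupp.erase_add_single]
      · intro e he
        rw [mem_range, hn, Nat.lt_succ_iff]
        apply Nat.le_floor
        rw [le_div_iff₀ hwk]
        refine le_trans ?_ (mem_Fil'.1 hFN e he)
        rw [mul_comm]
        exact single_le_sum (f := fun i => w i * e i)
          (fun i _ => mul_nonneg (hw' i) (Nat.cast_nonneg _)) (mem_univ _)
    obtain ⟨s, rfl⟩ : ∃ s, s0 = s + 1 := Nat.exists_eq_succ_of_ne_zero (by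
      rintro rfl
      exact hF (by simpa using hFsum))
    have hsN : (s : ℝ) * w (some kk) ≤ N := by
      rw [← le_div_iff₀ hwk]
      exact le_trans (by exact_mod_cast (by omega)) (Nat.floor_le (by positivity))
    have hkφ : ∀ o, S1 o → ∀ (l : List (Fin m)) j, pderiv o (app δC l (φ j)) = 0 := by
      intro o ho l j
      rw [app_comm δC _ (pderiv_δC o), (hφ j).2 o ho, app_zero]
    have hkψ : ∀ o, S2 o → ∀ (l : List (Fin m)) j, pderiv o (app δC l (ψ j)) = 0 := by
      intro o ho l j
      rw [app_comm δC _ (pderiv_δC o), hψ j o ho, app_zero]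
    obtain ⟨Δ, hΔ, hU⟩ := exists_wronskian δC (fun i => i < kk)
      (fun d => ∃ o, S1 o ∧ d = pderiv o)
      (fun f g hg h1 h2 => constants' kk f g hg fun o => by
        by_cases ho : S1 o
        · exact h2 _ ⟨o, ho, rfl⟩
        · simp only [hS1, not_forall, not_le] at ho
          obtain ⟨i, rfl, hi⟩ := ho
          exact h1 i hi)
      (s + 1) φ hφi (by rintro d ⟨o, ho, rfl⟩ l _ j; exact hkφ o ho l j)
    obtain ⟨Δ', hΔ', hV0⟩ := exists_wronskian δC (fun i => i = kk)
      (fun d => ∃ o, S2 o ∧ d = pderiv o)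
      (fun f g hg h1 h2 => constants' kk f g hg fun o => by
        by_cases ho : S2 o
        · exact h2 _ ⟨o, ho, rfl⟩
        · simp only [hS2, ne_eq, not_not] at ho
          subst ho
          exact h1 kk rfl)
      (s + 1) ψ hψi (by rintro d ⟨o, ho, rfl⟩ l _ j; exact hkψ o ho l j)
    have hV := det_rep_ne_zero δC kk ψ Δ' hΔ' hV0
    set U := (Matrix.of fun i j => app δC (Δ i) (φ j)).det with hUdef
    set V := (Matrix.of fun (i : Fin (s + 1)) j => app δC (List.replicate i kk) (ψ j)).det
      with hVdef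
    have hUV : (Matrix.of fun (i j : Fin (s + 1)) =>
        app δC (Δ i) (app δC (List.replicate j kk) F)).det = U * V := by
      rw [hUdef, hVdef, ← Matrix.det_transpose (Matrix.of fun (i : Fin (s + 1)) j =>
        app δC (List.replicate i kk) (ψ j)), ← Matrix.det_mul]
      congr 1
      ext1 i j
      rw [Matrix.mul_apply, Matrix.of_apply, hFsum, app_sum, app_sum]
      refine sum_congr rfl fun l _ => ?_
      rw [mul_comm (φ l), app_mul_of_kill δC _ (φ l), mul_comm, app_mul_of_kill]
      · rfl
      · intro a ha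
        exact hkψ (some a) (fun h6 => absurd ((hΔ i).2 a ha) (by cases h6; exact lt_irrefl _)) _ _
      · intro a ha
        rw [List.eq_of_mem_replicate ha]
        exact (hφ l).2 (some kk) (by rintro i hi; cases hi; exact le_rfl)
    have hVk : ∀ o, S2 o → pderiv o V = 0 := fun o ho =>
      deriv_det_eq_zero _ _ fun a b => hkψ o ho _ _
    have hUk : ∀ o, S1 o → pderiv o U = 0 := fun o ho =>
      deriv_det_eq_zero _ _ fun a b => hkφ o ho _ _
    have hVp : V ∉ p := fun h6 => by
      obtain ⟨c, hc⟩ := exists_X_sub_C_mem hV hVk hp h6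
      exact hpc kk c hc
    have hIW : Idx δC v p (τ ^ 2 * θ / 32 * ((s + 1) * N)) (U * V) := by
      rw [← hUV]
      refine idx_roth hv hτ hN hθ (by nlinarith) hI kk s (by rw [hvw]; exact hsN) Δ ?_
      intro i
      have h6 := wwt_le (v := v) (x := τ / 2 * w (some kk)) (Δ i) (fun a ha => by
        have h7 : min η (τ / 2) * w (some kk) ≤ τ / 2 * w (some kk) := by
          gcongr; exact min_le_right _ _
        exact (h5 a kk ((hΔ i).2 _ ha)).trans h7)
      have h8 : ((Δ i).length : ℝ) ≤ s := by exact_mod_cast Nat.lt_succ_iff.1 (hΔ i).1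
      calc wwt v (Δ i) ≤ s * (τ / 2 * w (some kk)) := h6.trans (by gcongr)
        _ = τ / 2 * (s * w (some kk)) := by ring
        _ ≤ τ / 2 * N := by gcongr
        _ = τ * N / 2 := by ring
    refine h w v hw hv hvw
      (fun i j hij => (h5 i j hij).trans (by gcongr; exacts [hw' _, min_le_left _ _])) p hp hpc
      ((s + 1) * N) (by positivity) U hU ?_ (hUk none (by simp [hS1]))
      (fun i hi => hUk (some i) (by rintro j hj; cases hj; exact hi)) ?_
    · simpa using Fil_det (c := N) (Matrix.of fun i j => app δC (Δ i) (φ j)) fun i j =>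
        Fil_app (Fil_δC hw') _ (hφ j).1
    · intro l hl
      by_cases hlk : kk ∈ l
      · obtain ⟨l1, l2, rfl⟩ := List.append_of_mem hlk
        rw [app_append, app_cons]
        have : δC kk (app δC l2 U) = 0 := by
          change pderiv (some kk) (app δC l2 U) = 0
          rw [app_comm δC _ (pderiv_δC _), hUk (some kk) (by rintro i hi; cases hi; exact le_rfl),
            app_zero]
        rw [this, app_zero]
        exact p.zero_mem
      · have h6 := hIW l hl
        rw [app_mul_of_kill δC l V (fun a ha => hVk (some a) (fun h7 => hlk (by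
          cases h7; exact ha)))] at h6
        exact (hp.mem_or_mem h6).resolve_right hVp

end Vale.Agent.P021
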