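import Vale.Agent.P021.Noeth
import Vale.Agent.P021.Roth
import Vale.Agent.P021.Count

/-! The interpolation theorem. -/

namespace Vale.Agent.P021

open Finset MvPolynomial

variable {m : ℕ}

/-- Truncated logarithm of `1 + t`. -/
noncomputable def GG (T : ℕ) : AA m :=
  ∑ k ∈ range (T + 1), C ((-1) ^ (k + 1) / (k : ℂ)) * X none ^ k

/-- Local coordinates at the point `(1, x)` adapted to the curve. -/
noncomputable def sig (T : Fin m → ℕ) (x : Fin m → ℂ) : AA m →ₐ[ℂ] AA m :=
  aeval fun o => Option.casesOn o (1 + X none) fun i => C (x i) + GG (T i) + X (some i)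

@[simp] theorem sig_none (T : Fin m → ℕ) (x : Fin m → ℂ) : sig T x (X none) = 1 + X none := by
  simp [sig]

@[simp] theorem sig_some (T : Fin m → ℕ) (x : Fin m → ℂ) (i : Fin m) :
    sig T x (X (some i)) = C (x i) + GG (T i) + X (some i) := by simp [sig]

@[simp] theorem sig_C (T : Fin m → ℕ) (x : Fin m → ℂ) (c : ℂ) : sig T x (C c) = C c := by
  simp [sig]

theorem GG_succ (T : ℕ) : (GG (T + 1) : AA m)
    = GG T + C ((-1) ^ (T + 2) / ((T + 1 : ℕ) : ℂ)) * X none ^ (T + 1) := sum_range_succ _ _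

@[simp] theorem GG_zero : (GG 0 : AA m) = 0 := by simp [GG]

theorem sig_surjective (T : Fin m → ℕ) (x : Fin m → ℂ) : Function.Surjective (sig T x) := by
  have h0 : (X none : AA m) ∈ (sig T x).range := ⟨X none - 1, by simp⟩
  have hC : ∀ c : ℂ, (C c : AA m) ∈ (sig T x).range := fun c => Subalgebra.algebraMap_mem _ c
  have hG : ∀ n, (GG n : AA m) ∈ (sig T x).range := fun n =>
    sum_mem fun k _ => mul_mem (hC _) (pow_mem h0 _)
  have hX : ∀ o, (X o : AA m) ∈ (sig T x).range := by
    intro o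
    cases o with
    | none => exact h0
    | some i =>
      have : (X (some i) : AA m) = sig T x (X (some i)) - C (x i) - GG (T i) := by
        rw [sig_some]; ring
      rw [this]
      exact sub_mem (sub_mem ⟨_, rfl⟩ (hC _)) (hG _)
  intro f
  change f ∈ (sig T x).range
  induction f using MvPolynomial.induction_on with
  | C a => exact hC a
  | add p q hp hq => exact add_mem hp hq
  | mul_X p n hp => exact mul_mem hp (hX n)

/-- The derivation `D` in the local coordinates. -/
noncomputable def DD' (T : Fin m → ℕ) : Derivation ℂ (AA m) (AA m) :=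
  mkDerivation ℂ fun o => Option.casesOn o (1 + X none) fun i => (-X none) ^ T i

theorem chain_rule (s : AA m →ₐ[ℂ] AA m) (d d' : Derivation ℂ (AA m) (AA m))
    (h : ∀ o, s (d (X o)) = d' (s (X o))) (f : AA m) : s (d f) = d' (s f) := by
  induction f using MvPolynomial.induction_on with
  | C a =>
    have : s (C a) = C a := s.commutes a
    simp [this]
  | add p q hp hq => simp [hp, hq]
  | mul_X p n hp => simp [hp, h]

theorem DD'_GG (T : Fin m → ℕ) (n : ℕ) : DD' T (GG n) = 1 - (-X none) ^ n := by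
  have h0 : DD' T (X none) = 1 + X none := by simp [DD']
  induction n with
  | zero => simp
  | succ n ih =>
    have h1 : (C ((-1) ^ (n + 2) / ((n + 1 : ℕ) : ℂ)) : AA m) * ((n + 1 : ℕ) : AA m)
        = (-1) ^ n := by
      rw [← map_natCast (C : ℂ →+* AA m), ← map_mul,
        div_mul_cancel₀ _ (Nat.cast_ne_zero.2 (Nat.succ_ne_zero n))]
      simp [pow_add]
    rw [GG_succ, map_add, ih, Derivation.leibniz, Derivation.leibniz_pow, h0, derivation_C,
      smul_zero, add_zero, smul_eq_mul, smul_eq_mul, nsmul_eq_mul, ← mul_assoc, h1,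
      Nat.add_sub_cancel, neg_pow (X none : AA m) n, neg_pow (X none : AA m) (n + 1)]
    ring

theorem pderiv_GG (i : Fin m) (n : ℕ) : pderiv (some i) (GG n : AA m) = 0 := by
  induction n with
  | zero => simp
  | succ n ih => rw [GG_succ, map_add, ih]; simp

theorem sig_pderiv (T : Fin m → ℕ) (x : Fin m → ℂ) (i : Fin m) (f : AA m) :
    sig T x (pderiv (some i) f) = pderiv (some i) (sig T x f) := by
  refine chain_rule _ _ _ (fun o => ?_) f
  cases o with
  | none => simp
  | some j =>
    rw [sig_some, map_add, map_add, pderiv_GG]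
    by_cases h : j = i
    · subst h; simp
    · rw [pderiv_X_of_ne (by simpa using h)]; simp

theorem sig_DD (T : Fin m → ℕ) (x : Fin m → ℂ) (f : AA m) :
    sig T x (DD f) = DD' T (sig T x f) := by
  refine chain_rule _ _ _ (fun o => ?_) f
  cases o with
  | none => simp [DD']
  | some j =>
    rw [sig_some, map_add, map_add, DD'_GG]
    simp [DD']

theorem X_mem_neg (v : Option (Fin m) → ℝ) (o : Option (Fin m)) :
    (X o : AA m) ∈ Fil (-v) (-v o) := X_mem_Fil o

theorem Fil_DD' {v : Option (Fin m) → ℝ} (hv : ∀ o, 0 ≤ v o) {T : Fin m → ℕ}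
    (hT : ∀ i, v (some i) ≤ v none * (T i + 1)) {c : ℝ} {f : AA m} (hf : f ∈ Fil (-v) c) :
    DD' T f ∈ Fil (-v) (c + v none) := by
  refine Fil_derivation _ (fun o => ?_) hf
  cases o with
  | none => exact mem_Fil_neg_of_nonneg hv _ (by simp)
  | some i =>
    have h1 : DD' T (X (some i)) = (-X none) ^ T i := by simp [DD']
    rw [h1]
    refine Fil_mono (Fil_pow (neg_mem (X_mem_neg v none)) _) ?_
    have := hT i
    simp only [Pi.neg_apply]
    linarith

theorem GG_mem {v : Option (Fin m) → ℝ} (hv : ∀ o, 0 ≤ v o) (n : ℕ) :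
    (GG n : AA m) ∈ Fil (-v) (-v none) := by
  induction n with
  | zero => simp
  | succ n ih =>
    rw [GG_succ, pow_succ (X none : AA m) n, ← mul_assoc]
    refine add_mem ih ?_
    simpa using Fil_mul (mem_Fil_neg_of_nonneg hv _ le_rfl) (X_mem_neg v none)

theorem sig_app_δT {v : Option (Fin m) → ℝ} (hv : ∀ o, 0 ≤ v o) {T : Fin m → ℕ}
    (hT : ∀ i, v (some i) ≤ v none * (T i + 1)) (x : Fin m → ℂ) {c : ℝ} {f : AA m}
    (hf : sig T x f ∈ Fil (-v) c) (l : List (Option (Fin m))) :
    sig T x (app δT l f) ∈ Fil (-v) (c + wwt v l) := by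
  induction l with
  | nil => simpa [wwt] using hf
  | cons a l ih =>
    have h1 : wwt v (a :: l) = wwt v l + v a := by simp [wwt, add_comm]
    rw [app_cons, h1, ← add_assoc]
    cases a with
    | none =>
      change sig T x (DD _) ∈ _
      rw [sig_DD]; exact Fil_DD' hv hT ih
    | some i =>
      change sig T x (pderiv (some i) _) ∈ _
      rw [sig_pderiv]; simpa using Fil_pderiv ih (some i)

theorem sig_app_δC {v : Option (Fin m) → ℝ} {T : Fin m → ℕ} (x : Fin m → ℂ) {c : ℝ} {f : AA m}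
    (hf : sig T x f ∈ Fil (-v) c) (l : List (Fin m)) :
    sig T x (app δC l f) ∈ Fil (-v) (c + wwt (fun i => v (some i)) l) := by
  induction l with
  | nil => simpa [wwt] using hf
  | cons a l ih =>
    have h1 : wwt (fun i => v (some i)) (a :: l) = wwt (fun i => v (some i)) l + v (some a) := by
      simp [wwt, add_comm]
    rw [app_cons, h1, ← add_assoc]
    change sig T x (pderiv (some a) _) ∈ _
    rw [sig_pderiv]; simpa using Fil_pderiv ih (some a)

/-- The ideal of polynomials vanishing to weighted order `L` at the point. -/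
def II {v : Option (Fin m) → ℝ} (hv : ∀ o, 0 ≤ v o) (T : Fin m → ℕ) (x : Fin m → ℂ) (L : ℝ) :
    Ideal (AA m) where
  carrier := {f | sig T x f ∈ Fil (-v) (-L)}
  add_mem' := fun {a b} ha hb => by
    simp only [Set.mem_ofPred_eq, map_add] at *; exact add_mem ha hb
  zero_mem' := by simp
  smul_mem' := fun r f hf => by
    simp only [Set.mem_ofPred_eq, smul_eq_mul, map_mul] at *
    simpa using Fil_mul (mem_Fil_neg_of_nonneg hv _ le_rfl) hf

section II

variable {v : Option (Fin m) → ℝ} {hv : ∀ o, 0 ≤ v o} {T : Fin m → ℕ} {x : Fin m → ℂ}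

theorem mem_II {L : ℝ} {f : AA m} : f ∈ II hv T x L ↔ sig T x f ∈ Fil (-v) (-L) := Iff.rfl

theorem II_mul {a b : ℝ} {f g : AA m} (hf : f ∈ II hv T x a) (hg : g ∈ II hv T x b) :
    f * g ∈ II hv T x (a + b) := by
  rw [mem_II] at *
  rw [map_mul, neg_add]
  exact Fil_mul hf hg

theorem II_top (L : ℝ) (hL : L ≤ 0) : II hv T x L = ⊤ := by
  rw [eq_top_iff]
  intro f _
  exact mem_Fil_neg_of_nonneg hv _ (by linarith)

theorem sup_II_eq_top {p : Ideal (AA m)} {q : AA m} (hq : q ∈ p) {κ : ℂ} (hκ : κ ≠ 0) {ε : ℝ}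
    (hε : 0 < ε) (h : sig T x q - C κ ∈ Fil (-v) (-ε)) (L : ℝ) : p ⊔ II hv T x L = ⊤ := by
  obtain ⟨M, hM⟩ := exists_nat_ge (L / ε)
  rw [div_le_iff₀ hε] at hM
  set n : AA m := 1 - C κ⁻¹ * q with hn
  have h1 : sig T x n ∈ Fil (-v) (-ε) := by
    have : sig T x n = -(κ⁻¹ • (sig T x q - C κ)) := by
      rw [hn, map_sub, map_one, map_mul, sig_C, smul_eq_C_mul, mul_sub, ← map_mul,
        inv_mul_cancel₀ hκ, map_one, neg_sub]
    rw [this]
    exact neg_mem (Submodule.smul_mem _ _ h)
  have h2 : n ^ M ∈ II hv T x L := by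
    rw [mem_II, map_pow]
    exact Fil_mono (Fil_pow h1 M) (by linarith)
  have h3 : 1 - n ^ M ∈ p := by
    obtain ⟨y, hy⟩ := one_sub_dvd_one_sub_pow n M
    rw [hy, hn, sub_sub_cancel]
    exact p.mul_mem_right _ (p.mul_mem_left _ hq)
  rw [Ideal.eq_top_iff_one]
  simpa using add_mem (Ideal.mem_sup_left h3 : _ ∈ p ⊔ II hv T x L) (Ideal.mem_sup_right h2)

theorem mem_sup_II {p : Ideal (AA m)} (hp : X none - C 1 ∈ p) {v' : Option (Fin m) → ℝ}
    (hvv : ∀ i, v' (some i) = v (some i)) {L : ℝ} {f : AA m}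
    (hf : sig T x f ∈ Fil (-v') (-L)) : f ∈ p ⊔ II hv T x L := by
  obtain ⟨g, hg⟩ := sig_surjective T x ((sig T x f).divMonomial (Finsupp.single none 1))
  have h1 : f - (X none - C 1) * g ∈ II hv T x L := by
    have h2 : sig T x (f - (X none - C 1) * g)
        = (sig T x f).modMonomial (Finsupp.single none 1) := by
      rw [map_sub, map_mul, hg, map_sub, sig_none, sig_C, map_one, add_sub_cancel_left,
        sub_eq_iff_eq_add', divMonomial_add_modMonomial_single]
    rw [mem_II, h2]
    intro e he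
    by_cases h3 : Finsupp.single none 1 ≤ e
    · exact coeff_modMonomial_of_le _ h3
    · rw [coeff_modMonomial_of_not_le _ h3]
      apply hf
      have h4 : e none = 0 := by rw [Finsupp.single_le_iff] at h3; omega
      rw [wt_option, h4] at he ⊢
      simpa [hvv] using he
  simpa using add_mem (Ideal.mem_sup_left (p.mul_mem_right g hp) : _ ∈ p ⊔ II hv T x L)
    (Ideal.mem_sup_right h1)

end II

theorem exists_vanishing {K : ℕ} (s : Fin K → AA m →ₐ[ℂ] AA m)
    (Cs Rs : Finset (Option (Fin m) →₀ ℕ)) (h : K * Rs.card < Cs.card) :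
    ∃ F : AA m, F ≠ 0 ∧ (∀ e ∈ F.support, e ∈ Cs) ∧ ∀ j, ∀ e ∈ Rs, coeff e (s j F) = 0 := by
  let B := basisRestrictSupport ℂ (Cs : Set (Option (Fin m) →₀ ℕ))
  have : Module.Finite ℂ (restrictSupport ℂ (Cs : Set (Option (Fin m) →₀ ℕ))) :=
    Module.Finite.of_basis B
  let Lm : restrictSupport ℂ (Cs : Set (Option (Fin m) →₀ ℕ)) →ₗ[ℂ] (Fin K × Rs → ℂ) :=
    LinearMap.pi fun q => (lcoeff ℂ q.2.1) ∘ₗ (s q.1).toLinearMap ∘ₗ Submodule.subtype _
  have h1 : LinearMap.ker Lm ≠ ⊥ := LinearMap.ker_ne_bot_of_finrank_lt (by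
    rw [Module.finrank_eq_card_basis B]; simpa using h)
  obtain ⟨F, hF, hF0⟩ := Submodule.exists_mem_ne_zero_of_ne_bot h1
  refine ⟨F, fun h2 => hF0 (Subtype.ext h2), fun e he => F.2 he, fun j e he => ?_⟩
  exact congrFun (LinearMap.mem_ker.1 hF) (j, ⟨e, he⟩)

theorem exists_count {ι : Type} [Fintype ι] {w v : ι → ℝ} (hw : ∀ i, 0 < w i) (hv : ∀ i, 0 < v i)
    {K : ℕ} {l : ℝ} (hl : 0 ≤ l) (h : K * l ^ Fintype.card ι * ∏ i, w i < ∏ i, v i) :
    ∃ N : ℝ, 0 < N ∧ K * (box v (l * N)).card < (box w N).card := by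
  have ht : Filter.Tendsto (fun N : ℝ => K * (l + (∑ i, v i) / N) ^ Fintype.card ι * ∏ i, w i)
      Filter.atTop (nhds (K * (l + 0) ^ Fintype.card ι * ∏ i, w i)) :=
    (((Filter.tendsto_id.const_div_atTop _).const_add l).pow _ |>.const_mul _).mul_const _
  rw [add_zero] at ht
  obtain ⟨N, hN1, hN⟩ := ((ht.eventually_lt_const h).and (Filter.eventually_gt_atTop 0)).exists
  refine ⟨N, hN, ?_⟩
  have h1 := (card_box_bounds ι w hw N hN.le).1
  have h2 := (card_box_bounds ι v hv (l * N) (by positivity)).2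
  have hW : 0 < ∏ i, w i := prod_pos fun i _ => hw i
  have hV : 0 < ∏ i, v i := prod_pos fun i _ => hv i
  have hf : (0 : ℝ) < (Fintype.card ι).factorial := by positivity
  have h3 : l * N + ∑ i, v i = (l + (∑ i, v i) / N) * N := by field_simp
  rw [h3, mul_pow] at h2
  have hNn : 0 < N ^ Fintype.card ι := by positivity
  have h4 : ((K * (box v (l * N)).card : ℕ) : ℝ) < (box w N).card := by
    apply lt_of_mul_lt_mul_left (a := (Fintype.card ι).factorial * (∏ i, v i) * ∏ i, w i) _
      (by positivity)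
    push_cast
    calc _ = K * ((Fintype.card ι).factorial * (∏ i, v i) * (box v (l * N)).card) * ∏ i, w i := by
          ring
      _ ≤ K * ((l + (∑ i, v i) / N) ^ Fintype.card ι * N ^ Fintype.card ι) * ∏ i, w i := by gcongr
      _ = (K * (l + (∑ i, v i) / N) ^ Fintype.card ι * ∏ i, w i) * N ^ Fintype.card ι := by ring
      _ < (∏ i, v i) * N ^ Fintype.card ι := by gcongr
      _ ≤ (∏ i, v i) * ((Fintype.card ι).factorial * (∏ i, w i) * (box w N).card) := by gcongr
      _ = _ := by ring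
  exact_mod_cast h4

set_option maxHeartbeats 400000 in
theorem interpolation {θ s : ℝ} (hθ : 0 < θ) (hs : 0 < s) (hs1 : s ≤ 1)
    (hθs : (1 + s) * θ ≤ 1) (m : ℕ) : ∃ η : ℝ, 0 < η ∧ ∀ w v : Option (Fin m) → ℝ,
    (∀ o, 0 < w o) → (∀ o, 0 < v o) → (∀ i, v (some i) * θ = w (some i)) →
    (∀ i, v none ≤ η * w (some i)) → (∀ i j, i < j → v (some i) ≤ η * w (some j)) →
    ∀ (K : ℕ) (x : Fin K → Fin m → ℂ), (∀ i, Function.Injective fun j => x j i) →
    ∀ T : Fin m → ℕ, (∀ i, v (some i) ≤ v none * (T i + 1)) →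
    K * (1 + 2 * s) ^ (m + 1) * θ ^ m * w none < v none → K * (1 + 2 * s) ^ m * θ ^ m < 1 →
    ∃ H0 : ℝ, ∀ H ≥ H0, ∀ g : Fin K → AA m, ∃ f ∈ Fil w H,
      ∀ j, sig T (x j) f - g j ∈ Fil (-v) (-H) := by
  have hθ1 : θ ≤ 1 := by nlinarith
  obtain ⟨η1, hη1, hR1⟩ := roth_twisted (m := m) hθ hθ1 m s hs hs1
  obtain ⟨η2, hη2, hR2⟩ := roth_classical (m := m) hθ hθ1 m s hs hs1
  refine ⟨min η1 η2, lt_min hη1 hη2, fun w v hw hv hvw h0 hsep K x hx T hT c1 c2 => ?_⟩
  have hw' : ∀ o, 0 ≤ w o := fun o => (hw o).le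
  have hv' : ∀ o, 0 ≤ v o := fun o => (hv o).le
  have hprod : ∏ i, w (some i) = θ ^ m * ∏ i, v (some i) := by
    simp only [← hvw, prod_mul_distrib, prod_const, card_univ, Fintype.card_fin, mul_comm]
  have hV : 0 < ∏ i, v (some i) := prod_pos fun i _ => hv _
  have main := surj_all (P := fun H => (Fil w H).toAddSubgroup)
    (I := fun j L => II hv' T (x j) L) (l1 := 1 + s) (by linarith)
    (fun hf hg => Fil_mul hf hg) (fun f => exists_mem_Fil w f) (fun j _ _ _ _ hf hg => II_mul hf hg)
    (fun j => II_top) ?_ ⊥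
  · obtain ⟨H0, hH0⟩ := main 1 (by linarith)
    refine ⟨H0, fun H hH g => ?_⟩
    choose g' hg' using fun j => sig_surjective T (x j) (g j)
    obtain ⟨f, hf, hfg⟩ := hH0 H hH H (by linarith) g'
    refine ⟨f, hf, fun j => ?_⟩
    have := hfg j
    rwa [bot_sup_eq, mem_II, map_sub, hg'] at this
  intro p hp
  have hone : (∀ j L, p ⊔ II hv' T (x j) L = ⊤) →
      Key (fun H => (Fil w H).toAddSubgroup) (fun j L => II hv' T (x j) L) (1 + s) p :=
    fun h => ⟨1, one_pos, 1, one_mem_Fil zero_le_one,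
      fun h1 => hp.ne_top ((Ideal.eq_top_iff_one p).2 h1), fun j => by rw [h]; trivial⟩
  by_cases hY : ∃ c : ℂ, X none - C c ∈ p
  swap
  · left
    obtain ⟨N, hN, hc⟩ := exists_count hw hv (K := K) (l := 1 + 2 * s) (by linarith) (by
      rw [Fintype.prod_option, Fintype.prod_option, hprod, Fintype.card_option, Fintype.card_fin]
      nlinarith)
    obtain ⟨F, hF0, hF1, hF2⟩ := exists_vanishing (fun j => sig T (x j)) _ _ hc
    have hFN : F ∈ Fil w N := mem_Fil'.2 fun e he => (mem_box hw).1 (hF1 e he)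
    have hI : ¬ Idx δT v p (s * N) F := fun hI => hY (hR1 w v hw hv' hvw
      (fun i => (h0 i).trans (by gcongr; exacts [hw' _, min_le_left _ _]))
      (fun i j hij => (hsep i j hij).trans (by gcongr; exacts [hw' _, min_le_left _ _]))
      p hp N hN F hF0 hFN (fun i hi => absurd i.2 (by omega)) hI)
    simp only [Idx, not_forall] at hI
    obtain ⟨l, hl, hlp⟩ := hI
    refine ⟨N, hN, app δT l F, Fil_app (Fil_δT hw') l hFN, hlp, fun j => Ideal.mem_sup_right ?_⟩
    have h1 : sig T (x j) F ∈ Fil (-v) (-((1 + 2 * s) * N)) := fun e he =>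
      hF2 j e ((mem_box hv).2 (by rw [wt_neg] at he; linarith))
    exact Fil_mono (sig_app_δT hv' hT (x j) h1 l) (by linarith)
  obtain ⟨c, hc⟩ := hY
  by_cases hc1 : c = 1
  swap
  · refine Or.inl (hone fun j L => sup_II_eq_top hc (κ := 1 - c) (sub_ne_zero.2 (Ne.symm hc1))
      (hv none) ?_ L)
    have : sig T (x j) (X none - C c) - C (1 - c) = X none := by simp
    rw [this]; exact X_mem_neg v none
  subst hc1
  by_cases hX : ∃ i c, X (some i) - C c ∈ p
  swap
  · left
    push Not at hX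
    obtain ⟨N, hN, hcc⟩ := exists_count (w := fun i => w (some i)) (v := fun i => v (some i))
      (fun i => hw _) (fun i => hv _) (K := K) (l := 1 + 2 * s) (by linarith) (by
      rw [hprod, Fintype.card_fin]
      nlinarith)
    let emb : (Fin m →₀ ℕ) ↪ (Option (Fin m) →₀ ℕ) := ⟨fun b => b.optionElim 0, fun a b h => by
      simpa using congrArg Finsupp.some h⟩
    have hemb : ∀ b, emb b = b.optionElim 0 := fun _ => rfl
    obtain ⟨F, hF0, hF1, hF2⟩ := exists_vanishing (fun j => sig T (x j))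
      ((box (fun i => w (some i)) N).map emb)
      ((box (fun i => v (some i)) ((1 + 2 * s) * N)).map emb) (by simpa using hcc)
    have hFN : F ∈ Fil w N := mem_Fil'.2 fun e he => by
      obtain ⟨b, hb, rfl⟩ := mem_map.1 (hF1 e he)
      rw [mem_box (fun i => hw _)] at hb
      rw [wt_option]
      simpa [hemb] using hb
    have hFY : pderiv none F = 0 := pderiv_eq_zero_iff.2 fun e he => by
      obtain ⟨b, _, rfl⟩ := mem_map.1 (hF1 e he)
      simp [hemb]
    have hI := hR2 w (fun i => v (some i)) hw (fun i => hv' _) hvw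
      (fun i j hij => (hsep i j hij).trans (by gcongr; exacts [hw' _, min_le_right _ _]))
      p hp hX N hN F hF0 hFN hFY (fun i hi => absurd i.2 (by omega))
    simp only [Idx, not_forall] at hI
    obtain ⟨l, hl, hlp⟩ := hI
    refine ⟨N, hN, app δC l F, Fil_app (Fil_δC hw') l hFN, hlp, fun j => ?_⟩
    let v' : Option (Fin m) → ℝ := fun o => Option.casesOn o ((1 + 2 * s) * N) fun i => v (some i)
    have h1 : sig T (x j) F ∈ Fil (-v') (-((1 + 2 * s) * N)) := fun e he => by
      rw [wt_neg, wt_option] at he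
      have h2 := wt_nonneg (w := fun i => v' (some i)) (fun i => hv' _) e.some
      have h3 : e none = 0 := by
        by_contra h4
        have h5 : (1 : ℝ) ≤ e none := by exact_mod_cast Nat.pos_of_ne_zero h4
        have h6 : v' none = (1 + 2 * s) * N := rfl
        have h7 : 0 < (1 + 2 * s) * N := by positivity
        rw [h6] at he
        nlinarith
      refine hF2 j e (mem_map.2 ⟨e.some, (mem_box (fun i => hv _)).2 ?_, ?_⟩)
      · rw [h3] at he
        simp only [Nat.cast_zero, mul_zero, zero_add] at he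
        exact (neg_lt_neg_iff.1 he).le
      · change e.some.optionElim 0 = e
        rw [← h3, Finsupp.optionElim_some]
    have h8 : sig T (x j) (app δC l F) ∈ Fil (-v') (-((1 + s) * N)) := by
      refine Fil_mono (sig_app_δC (x j) h1 l) ?_
      change _ + wwt (fun i => v (some i)) l ≤ _
      linarith
    exact mem_sup_II (hv := hv') (v' := v') hc (fun i => rfl) h8
  obtain ⟨i, c', hi⟩ := hX
  have hfar : ∀ j, x j i ≠ c' → ∀ L, p ⊔ II hv' T (x j) L = ⊤ := by
    intro j hj L
    refine sup_II_eq_top hi (κ := x j i - c') (sub_ne_zero.2 hj)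
      (lt_min (hv none) (hv (some i))) ?_ L
    have : sig T (x j) (X (some i) - C c') - C (x j i - c') = GG (T i) + X (some i) := by
      simp only [map_sub, sig_some, sig_C]; ring
    rw [this]
    exact add_mem (Fil_mono (GG_mem hv' _) (neg_le_neg (min_le_left _ _)))
      (Fil_mono (X_mem_neg v _) (neg_le_neg (min_le_right _ _)))
  by_cases hj : ∃ j, x j i = c'
  swap
  · push Not at hj
    exact Or.inl (hone fun j => hfar j (hj j))
  obtain ⟨j0, hj0⟩ := hj
  have hfar' : ∀ j, j ≠ j0 → ∀ L, p ⊔ II hv' T (x j) L = ⊤ := fun j hj =>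
    hfar j fun h => hj (hx i (h.trans hj0.symm))
  by_cases hk : ∃ k, X (some k) - C (x j0 k) ∉ p
  · left
    obtain ⟨k, hk⟩ := hk
    refine ⟨w (some k), hw _, _, sub_mem (X_mem_Fil _) (C_mem_Fil _ (hw' _)), hk, fun j => ?_⟩
    by_cases hj : j = j0
    swap
    · rw [hfar' j hj]; trivial
    subst hj
    let v' : Option (Fin m) → ℝ := fun o => Option.casesOn o (v (some k)) fun i => v (some i)
    have hv'' : ∀ o, 0 ≤ v' o := fun o => by cases o <;> exact hv' _
    refine mem_sup_II (hv := hv') (T := T) (x := x j) (v' := v') (L := (1 + s) * w (some k)) hc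
      (fun i => rfl) (Fil_mono (c := -v (some k)) ?_ ?_)
    · have : sig T (x j) (X (some k) - C (x j k)) = GG (T k) + X (some k) := by
        simp only [map_sub, sig_some, sig_C]; ring
      rw [this]
      exact add_mem (GG_mem hv'' _) (X_mem_neg v' (some k))
    · rw [← hvw k]
      have := hv (some k)
      nlinarith
  · right
    push Not at hk
    have hconst : ∀ g : AA m, ∃ c, g - C c ∈ p := by
      intro g
      induction g using MvPolynomial.induction_on with
      | C a => exact ⟨a, by simp⟩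
      | add f g hf hg =>
        obtain ⟨a, ha⟩ := hf
        obtain ⟨b, hb⟩ := hg
        refine ⟨a + b, ?_⟩
        have : f + g - C (a + b) = (f - C a) + (g - C b) := by rw [map_add]; ring
        rw [this]; exact add_mem ha hb
      | mul_X f o hf =>
        obtain ⟨a, ha⟩ := hf
        obtain ⟨b, hb⟩ : ∃ b, X o - C b ∈ p := by
          cases o with
          | none => exact ⟨1, hc⟩
          | some k => exact ⟨_, hk k⟩
        refine ⟨a * b, ?_⟩
        have : f * X o - C (a * b) = (f - C a) * X o + C a * (X o - C b) := by rw [map_mul]; ring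
        rw [this]; exact add_mem (p.mul_mem_right _ ha) (p.mul_mem_left _ hb)
    intro l _
    refine ⟨0, fun H hH L _ g => ?_⟩
    obtain ⟨a, ha⟩ := hconst (g j0)
    refine ⟨C a, C_mem_Fil a hH, fun j => ?_⟩
    by_cases hj : j = j0
    · subst hj
      exact Ideal.mem_sup_left (by simpa using neg_mem ha)
    · rw [hfar' j hj]; trivial

end Vale.Agent.P021
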