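import Vale.Agent.P021.Upper

/-! The arithmetic lower bound for the interpolation determinant. -/

namespace Vale.Agent.P021

open Finset MvPolynomial

variable {m : ℕ}

theorem coeff_scale {σ : Type*} [Fintype σ] (s : σ → ℂ) (p : MvPolynomial σ ℂ) (e : σ →₀ ℕ) :
    coeff e (aeval (fun o => C (s o) * X o : σ → MvPolynomial σ ℂ) p)
      = (∏ o, s o ^ e o) * coeff e p := by
  classical
  induction p using MvPolynomial.induction_on' with
  | add p q hp hq => rw [map_add, coeff_add, coeff_add, hp, hq, mul_add]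
  | monomial d a =>
    have h1 : aeval (fun o => C (s o) * X o : σ → MvPolynomial σ ℂ) (monomial d a)
        = monomial d ((∏ o, s o ^ d o) * a) := by
      rw [aeval_monomial, monomial_eq, Finsupp.prod_fintype _ _ (by simp),
        Finsupp.prod_fintype _ _ (by simp)]
      simp only [mul_pow, prod_mul_distrib, algebraMap_eq, map_mul, map_prod, map_pow]
      ring
    rw [h1, coeff_monomial, coeff_monomial]
    split_ifs with h
    · rw [h]
    · rw [mul_zero]

theorem lower_bound {ρ : Type} [Fintype ρ] [DecidableEq ρ] (T : Fin m → ℕ)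
    (x : ρ → Fin m → ℂ) (er col : ρ → Option (Fin m) →₀ ℕ) (Q : Fin m → ℕ) (hQ : ∀ i, Q i ≠ 0)
    (hx : ∀ r i, ∃ g : GaussianInt, (g : ℂ) = Q i * x r i)
    (hdvd : ∀ i k, 1 ≤ k → k ≤ T i → k ∣ Q i)
    (hdet : (Matrix.of fun r c => coeff (er r) (sig T (x r) (monomial (col c) 1))).det ≠ 0) :
    ∏ r, ∏ i, (Q i : ℝ) ^ er r (some i) ≤
      ‖(Matrix.of fun r c => (∏ i, (((Q i : ℝ) : ℂ)) ^ col c (some i)) *
        coeff (er r) (sig T (x r) (monomial (col c) 1))).det‖ := by
  classical
  set S := (MvPolynomial.map (σ := Option (Fin m)) GaussianInt.toComplex).range with hS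
  have hXS : ∀ o, (X o : AA m) ∈ S := fun o => ⟨X o, by simp⟩
  have hCS : ∀ g : GaussianInt, (C (g : ℂ) : AA m) ∈ S := fun g => ⟨C g, by simp⟩
  have hGS : ∀ i, (C (Q i : ℂ) * GG (T i) : AA m) ∈ S := by
    intro i
    rw [GG, mul_sum]
    refine sum_mem fun k hk => ?_
    rw [← mul_assoc, ← map_mul]
    refine mul_mem ?_ (pow_mem (hXS _) _)
    rcases Nat.eq_zero_or_pos k with rfl | hk0
    · simp
    · obtain ⟨l, hl⟩ := hdvd i k hk0 (Nat.lt_succ_iff.1 (mem_range.1 hk))
      have h1 : (Q i : ℂ) * ((-1) ^ (k + 1) / k) = (((-1) ^ (k + 1) * l : GaussianInt) : ℂ) := by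
        have : (k : ℂ) ≠ 0 := Nat.cast_ne_zero.2 hk0.ne'
        rw [hl]
        simp only [map_mul, map_pow, map_neg, map_one, map_natCast, Nat.cast_mul]
        field_simp
      rw [h1]; exact hCS _
  set P : ρ → ρ → AA m := fun r c => (1 + X none) ^ col c none *
    ∏ i, (C (Q i * x r i) + C (Q i : ℂ) * GG (T i) + X (some i)) ^ col c (some i) with hP
  have hPS : ∀ r c, P r c ∈ S := fun r c =>
    mul_mem (pow_mem (add_mem (one_mem _) (hXS _)) _) (prod_mem fun i _ => pow_mem
      (add_mem (add_mem (by obtain ⟨g, hg⟩ := hx r i; rw [← hg]; exact hCS g) (hGS i)) (hXS _)) _)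
  choose P' hP' using hPS
  set Z : Matrix ρ ρ GaussianInt := Matrix.of fun r c => coeff (er r) (P' r c) with hZ
  set s : Option (Fin m) → ℂ := fun o => Option.casesOn o 1 fun i => (Q i : ℂ) with hs
  have hent : ∀ r c, (∏ i, (((Q i : ℝ) : ℂ)) ^ col c (some i)) *
      coeff (er r) (sig T (x r) (monomial (col c) 1))
      = (∏ i, (Q i : ℂ) ^ er r (some i)) * GaussianInt.toComplex.mapMatrix Z r c := by
    intro r c
    have h1 := coeff_scale s (P r c) (er r)
    have hs0 : s none = 1 := rfl
    have hs1 : ∀ i, s (some i) = Q i := fun _ => rfl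
    have h2 : ∀ n, aeval (fun o => C (s o) * X o : Option (Fin m) → AA m) (GG n : AA m) = GG n := by
      intro n; simp [GG, hs]
    have h3 : aeval (fun o => C (s o) * X o : Option (Fin m) → AA m) (P r c)
        = C (∏ i, (Q i : ℂ) ^ col c (some i)) * sig T (x r) (monomial (col c) 1) := by
      rw [sig_monomial, hP]
      simp only [map_mul, map_pow, map_add, map_one, aeval_X, map_prod, aeval_C, algebraMap_eq,
        h2, hs0, hs1, one_mul]
      rw [mul_left_comm, ← prod_mul_distrib]
      congr 1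
      refine prod_congr rfl fun i _ => ?_
      rw [← mul_pow]
      congr 1
      ring
    rw [h3, coeff_C_mul, Fintype.prod_option, ← hP' r c, coeff_map] at h1
    simpa [hs, hZ] using h1
  have h4 : (Matrix.of fun r c => (∏ i, (((Q i : ℝ) : ℂ)) ^ col c (some i)) *
      coeff (er r) (sig T (x r) (monomial (col c) 1))).det
      = (∏ r, ∏ i, (Q i : ℂ) ^ er r (some i)) * GaussianInt.toComplex Z.det := by
    simp only [hent]
    rw [Matrix.det_mul_column, RingHom.map_det]
  have h5 : Z.det ≠ 0 := by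
    intro h0
    rw [h0, map_zero, mul_zero] at h4
    have h6 := Matrix.det_mul_row (fun c => ∏ i, (((Q i : ℝ) : ℂ)) ^ col c (some i))
      (Matrix.of fun r c => coeff (er r) (sig T (x r) (monomial (col c) 1)))
    simp only [Matrix.of_apply] at h6
    rw [h6] at h4
    refine mul_ne_zero (prod_ne_zero_iff.2 fun c _ => prod_ne_zero_iff.2 fun i _ => ?_) hdet h4
    exact pow_ne_zero _ (by simpa using hQ i)
  have h7 : 1 ≤ ‖GaussianInt.toComplex Z.det‖ := by
    have h8 : (1 : ℝ) ≤ (Z.det.norm : ℝ) := by exact_mod_cast GaussianInt.norm_pos.2 h5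
    rw [GaussianInt.intCast_real_norm, Complex.normSq_eq_norm_sq] at h8
    exact (one_le_sq_iff₀ (norm_nonneg _)).1 h8
  rw [h4, norm_mul]
  simp only [norm_prod, norm_pow, Complex.norm_natCast]
  exact le_mul_of_one_le_right (by positivity) h7

end Vale.Agent.P021
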