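import Vale.Agent.P021.Core

/-! Choice of parameters and the final contradiction. -/

namespace Vale.Agent.P021

open Finset MvPolynomial Filter Topology

theorem exists_params {ν : ℝ} (hν : 2 < ν) : ∃ A θ δ : ℝ, 0 < A ∧ 0 < θ ∧ 0 < δ ∧ δ < 1 ∧
    (1 + 2 * δ) * θ < 1 ∧ A ^ 2 * (1 + 2 * δ) < θ * (1 - δ) ^ 2 ∧
    (1 + δ) + ν * θ * δ + (ν - 1) * θ < (1 - δ) * ((ν - δ) * A) := by
  have h1 : 0 < ν - 1 := by linarith
  obtain ⟨A, hA1, hA2⟩ := exists_between (show 1 / (ν - 1) < 1 by rw [div_lt_one h1]; linarith)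
  have hA : 0 < A := lt_trans (by positivity) hA1
  rw [div_lt_iff₀ h1] at hA1
  obtain ⟨θ, hθ1, hθ2⟩ := exists_between (show A ^ 2 < min 1 ((ν * A - 1) / (ν - 1)) by
    refine lt_min (by nlinarith) ?_
    rw [lt_div_iff₀ h1]
    nlinarith [mul_pos (sub_pos.2 hA2) (sub_pos.2 hA1)])
  have hθ3 : θ < 1 := lt_of_lt_of_le hθ2 (min_le_left _ _)
  have hθ4 := lt_of_lt_of_le hθ2 (min_le_right _ _)
  rw [lt_div_iff₀ h1] at hθ4
  have e1 : ∀ᶠ δ in 𝓝 (0 : ℝ), δ < 1 := eventually_lt_nhds one_pos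
  have e2 : ∀ᶠ δ in 𝓝 (0 : ℝ), (1 + 2 * δ) * θ < 1 :=
    ContinuousAt.eventually_lt (by fun_prop) continuousAt_const (by simpa using hθ3)
  have e3 : ∀ᶠ δ in 𝓝 (0 : ℝ), A ^ 2 * (1 + 2 * δ) < θ * (1 - δ) ^ 2 :=
    ContinuousAt.eventually_lt (by fun_prop) (by fun_prop) (by simpa using hθ1)
  have e4 : ∀ᶠ δ in 𝓝 (0 : ℝ), (1 + δ) + ν * θ * δ + (ν - 1) * θ < (1 - δ) * ((ν - δ) * A) :=
    ContinuousAt.eventually_lt (by fun_prop) (by fun_prop) (by simp; linarith)
  obtain ⟨δ, ⟨h2, h3, h4, h5⟩, hδ⟩ := (((e1.and (e2.and (e3.and e4))).filter_mono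
    (nhdsWithin_le_nhds (s := Set.Ioi 0))).and self_mem_nhdsWithin).exists
  exact ⟨A, θ, δ, hA, lt_trans (by positivity) hθ1, hδ, h2, h3, h4, h5⟩

theorem exists_mK {a b c1 c2 : ℝ} (ha : 0 < a) (hb : 0 < b) (hb1 : b < 1) (hab : a ^ 2 * b < 1)
    (hc1 : 0 < c1) (hc2 : 0 < c2) : ∃ m K : ℕ, 0 < K ∧ c1 * a ^ m < K ∧
      K * (2 * Real.pi * K + 1) * c2 * b ^ m < 1 := by
  have hab1 : a * b < 1 := by
    have : (a * b) ^ 2 < 1 := by nlinarith [mul_pos (pow_pos ha 2) hb]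
    exact lt_of_pow_lt_pow_left₀ 2 zero_le_one (by simpa using this)
  have t1 := tendsto_pow_atTop_nhds_zero_of_lt_one (by positivity) hab
  have t2 := tendsto_pow_atTop_nhds_zero_of_lt_one (by positivity) hab1
  have t3 := tendsto_pow_atTop_nhds_zero_of_lt_one hb.le hb1
  have t4 := ((t1.const_mul (2 * Real.pi * c1 ^ 2 * c2)).add
    (t2.const_mul ((4 * Real.pi + 1) * c1 * c2))).add (t3.const_mul ((2 * Real.pi + 1) * c2))
  simp only [mul_zero, add_zero] at t4
  obtain ⟨m, hm⟩ := (t4.eventually_lt_const one_pos).exists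
  have h1 : ((⌊c1 * a ^ m⌋₊ + 1 : ℕ) : ℝ) ≤ c1 * a ^ m + 1 := by
    push_cast; linarith [Nat.floor_le (show 0 ≤ c1 * a ^ m by positivity)]
  refine ⟨m, ⌊c1 * a ^ m⌋₊ + 1, Nat.succ_pos _, by push_cast; exact Nat.lt_floor_add_one _, ?_⟩
  have := Real.pi_pos
  calc _ ≤ (c1 * a ^ m + 1) * (2 * Real.pi * (c1 * a ^ m + 1) + 1) * c2 * b ^ m := by gcongr
    _ = _ := by rw [mul_pow, mul_pow, ← pow_mul, mul_comm 2 m, pow_mul]; ring
    _ < 1 := hm

theorem exists_seq {P : ℤ → ℕ → Prop} (h : ∀ B : ℝ, ∃ p q, P p q ∧ B ≤ Real.log q) {W0 c : ℝ}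
    (hc : 1 ≤ c) : ∃ (p : ℕ → ℤ) (q : ℕ → ℕ), (∀ i, P (p i) (q i)) ∧
      (∀ i, W0 ≤ Real.log (q i)) ∧ ∀ i j, i < j → c * Real.log (q i) ≤ Real.log (q j) := by
  choose fp fq hP hB using h
  let B : ℕ → ℝ := fun n => Nat.rec W0 (fun _ b => c * Real.log (fq b)) n
  have hs : ∀ n, c * Real.log (fq (B n)) ≤ Real.log (fq (B (n + 1))) := fun n => hB (B (n + 1))
  have h0 : ∀ n, 0 ≤ Real.log (fq (B n)) := fun n => Real.log_natCast_nonneg _
  have hmono : Monotone fun n => Real.log (fq (B n)) := monotone_nat_of_le_succ fun n =>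
    le_trans (le_mul_of_one_le_left (h0 n) hc) (hs n)
  exact ⟨fun n => fp (B n), fun n => fq (B n), fun n => hP _,
    fun n => le_trans (hB W0) (hmono (Nat.zero_le n)), fun i j hij => (hs i).trans (hmono hij)⟩

theorem ev_count {m K : ℕ} {w : Fin m → ℝ} (hw : ∀ i, 0 < w i) {A a' δ v0 n : ℝ} (hA : 0 < A)
    (ha' : 0 < a') (hδ : 0 < δ) (hv0 : 0 < v0) (hn : 0 < n)
    (h : A ^ m * (n * A) < δ * (K * (δ / v0) * a' ^ m)) :
    ∀ᶠ H in atTop, ((box w (A * H)).card : ℝ) * (n * A * H + 1)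
      ≤ δ * (K * (δ * H / v0) * (box w (a' * H)).card) := by
  have ht : Tendsto (fun H : ℝ => (A + (∑ i, w i) / H) ^ m * (n * A + 1 / H)) atTop
      (𝓝 ((A + 0) ^ m * (n * A + 0))) :=
    (((tendsto_id.const_div_atTop _).const_add A).pow _).mul
      ((tendsto_id.const_div_atTop _).const_add _)
  rw [add_zero, add_zero] at ht
  filter_upwards [ht.eventually_lt_const h, eventually_gt_atTop 0] with H h1 hH
  have h2 := (card_box_bounds _ w hw (A * H) (by positivity)).2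
  have h3 := (card_box_bounds _ w hw (a' * H) (by positivity)).1
  rw [Fintype.card_fin] at h2 h3
  have hD : 0 < (m.factorial : ℝ) * ∏ i, w i := mul_pos (by positivity) (prod_pos fun i _ => hw i)
  apply le_of_mul_le_mul_left _ hD
  calc _ = (m.factorial * (∏ i, w i) * (box w (A * H)).card) * (n * A * H + 1) := by ring
    _ ≤ (A * H + ∑ i, w i) ^ m * (n * A * H + 1) := by gcongr
    _ = ((A + (∑ i, w i) / H) ^ m * (n * A + 1 / H)) * (H ^ m * H) := by
        have h4 : A * H + ∑ i, w i = (A + (∑ i, w i) / H) * H := by field_simp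
        rw [h4, mul_pow]; field_simp
    _ ≤ (δ * (K * (δ / v0) * a' ^ m)) * (H ^ m * H) := by gcongr
    _ = δ * (K * (δ * H / v0) * (a' * H) ^ m) := by rw [mul_pow]; ring
    _ ≤ δ * (K * (δ * H / v0) * (m.factorial * (∏ i, w i) * (box w (a' * H)).card)) := by gcongr
    _ = _ := by ring

theorem ev_gap {m K : ℕ} {w : Fin m → ℝ} (hw : ∀ i, 1 ≤ w i) {a' d g : ℝ} (ha' : 0 < a')
    (ha1 : a' ≤ 1) (hd : 0 < d) (hd1 : d ≤ 1) (hg : 0 < g) :
    ∀ᶠ H in atTop, (K : ℝ) * (d * H + 1) * (box w (a' * H)).card * 2 ^ (m + 1)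
      < Real.exp (g * H) := by
  set S := ∑ i, w i with hS
  have hS0 : 0 ≤ S := sum_nonneg fun i _ => by linarith [hw i]
  set c : ℝ := (K + 1) * 2 ^ (m + 1) * Real.exp (g * (S + 1)) with hc
  have hcpos : 0 < c := by positivity
  have h1 := ((isLittleO_pow_exp_pos_mul_atTop (m + 1) hg).comp_tendsto
    (tendsto_atTop_add_const_right atTop (S + 1) tendsto_id)).bound (inv_pos.2 hcpos)
  filter_upwards [h1, eventually_gt_atTop 0] with H h2 hH
  simp only [Function.comp, id, Real.norm_eq_abs] at h2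
  rw [abs_of_pos (by positivity), abs_of_pos (Real.exp_pos _), mul_add, Real.exp_add] at h2
  have h3 := (card_box_bounds _ w (fun i => by linarith [hw i]) (a' * H) (by positivity)).2
  rw [Fintype.card_fin] at h3
  have h4 : (1 : ℝ) ≤ m.factorial * ∏ i, w i :=
    one_le_mul_of_one_le_of_one_le (by exact_mod_cast Nat.factorial_pos m)
      (one_le_prod (fun i _ => hw i))
  have h5 : ((box w (a' * H)).card : ℝ) ≤ (H + (S + 1)) ^ m := by
    calc _ ≤ m.factorial * (∏ i, w i) * (box w (a' * H)).card :=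
          le_mul_of_one_le_left (Nat.cast_nonneg _) h4
      _ ≤ _ := h3
      _ ≤ _ := pow_le_pow_left₀ (by positivity) (by nlinarith) _
  have h6 : d * H + 1 ≤ H + (S + 1) := by nlinarith
  calc _ ≤ (K : ℝ) * (H + (S + 1)) * (H + (S + 1)) ^ m * 2 ^ (m + 1) := by gcongr
    _ = K * 2 ^ (m + 1) * (H + (S + 1)) ^ (m + 1) := by ring
    _ ≤ K * 2 ^ (m + 1) * (c⁻¹ * (Real.exp (g * H) * Real.exp (g * (S + 1)))) := by gcongr
    _ = K / (K + 1) * Real.exp (g * H) := by rw [hc]; field_simp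
    _ < _ := mul_lt_of_lt_one_left (Real.exp_pos _) (by rw [div_lt_one (by positivity)]; linarith)

theorem no_approx {ν : ℝ} (hν : 2 < ν) (h : ∀ B : ℝ, ∃ (p : ℤ) (q : ℕ),
    (2 ≤ q ∧ |Real.pi - p / q| < (q : ℝ) ^ (-ν)) ∧ B ≤ Real.log q) : False := by
  obtain ⟨A, θ, δ, hA, hθ, hδ, hδ1, hb1, hab, hgap⟩ := exists_params hν
  have hθ1 : θ < 1 := by nlinarith
  have hδ' : 0 < 1 - δ := by linarith
  have hνδ : 0 < ν - δ := by linarith
  set c0 : ℝ := Real.log 4 + 4 with hc0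
  have hc0pos : 0 < c0 := by have := Real.log_pos (show (1 : ℝ) < 4 by norm_num); linarith
  set v0 : ℝ := (2 * c0 / δ + 1) / θ with hv0def
  have hθv : θ * v0 = 2 * c0 / δ + 1 := by rw [hv0def]; field_simp
  have hκ : 1 ≤ θ * v0 := by rw [hθv]; have : 0 < 2 * c0 / δ := by positivity
                             linarith
  have hv0 : 0 < v0 := by positivity
  have hv1 : 1 ≤ v0 := by nlinarith
  obtain ⟨m, K, hK, hK1, hK2⟩ := exists_mK (a := A / (θ * (1 - δ))) (b := (1 + 2 * δ) * θ)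
    (c1 := (ν - δ) * A * v0 / δ ^ 2) (c2 := Real.exp 2 * (1 + 2 * δ)) (by positivity)
    (by positivity) hb1
    (by
      rw [div_pow, div_mul_eq_mul_div, div_lt_one (by positivity)]
      nlinarith)
    (by positivity) (by positivity)
  obtain ⟨η, hη, hint⟩ := interpolation hθ hδ hδ1.le (by nlinarith) m
  set w0 : ℝ := Real.exp 2 * (2 * Real.pi * K + 1) with hw0
  have hpi := Real.pi_pos
  have hw01 : 1 ≤ w0 := one_le_mul_of_one_le_of_one_le (Real.one_le_exp (by norm_num))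
    (by linarith [mul_nonneg (mul_nonneg zero_le_two hpi.le) (Nat.cast_nonneg (α := ℝ) K)])
  obtain ⟨p, q, hP, hW, hsep⟩ := exists_seq h
    (W0 := 1 + v0 / η + 2 * (2 * w0) / δ + 2 * (2 * K + 3) / δ) (c := 1 + 1 / (θ * η))
    (le_add_of_nonneg_right (by positivity))
  set w : Fin m → ℝ := fun i => Real.log (q i) with hwdef
  have hWa : ∀ i, 1 ≤ w i ∧ v0 / η ≤ w i ∧ 2 * (2 * w0) / δ ≤ w i ∧ 2 * (2 * K + 3) / δ ≤ w i := by
    intro i
    have h1 : 0 < v0 / η := by positivity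
    have h2 : 0 < 2 * (2 * w0) / δ := by positivity
    have h3 : 0 < 2 * (2 * (K : ℝ) + 3) / δ := by positivity
    have h4 : _ ≤ w i := hW i
    refine ⟨?_, ?_, ?_, ?_⟩ <;> linarith
  have hw : ∀ i, 0 < w i := fun i => by linarith [(hWa i).1]
  have hq2 : ∀ i : Fin m, (2 : ℝ) ≤ q i := fun i => by exact_mod_cast (hP i).1
  have hq : ∀ i : Fin m, (q i : ℝ) = Real.exp (w i) := fun i =>
    (Real.exp_log (by linarith [hq2 i])).symm
  have happ : ∀ i : Fin m, |Real.pi - p i / q i| ≤ Real.exp (-ν * w i) := fun i => by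
    have := (hP i).2.le
    rwa [Real.rpow_def_of_pos (by linarith [hq2 i]), mul_comm] at this
  let W : Option (Fin m) → ℝ := fun o => Option.casesOn o w0 w
  let V : Option (Fin m) → ℝ := fun o => Option.casesOn o v0 fun i => w i / θ
  let T : Fin m → ℕ := fun i => ⌊w i / (θ * v0)⌋₊
  let x : Fin K → Fin m → ℂ := fun j i => (j : ℕ) * (2 * Complex.I * (p i / q i))
  have hVW : ∀ i, V (some i) * θ = W (some i) := fun i => div_mul_cancel₀ _ hθ.ne'
  have hT : ∀ i, w i ≤ θ * v0 * (T i + 1) := fun i => by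
    rw [mul_comm, ← div_le_iff₀ (by positivity)]; exact (Nat.lt_floor_add_one _).le
  have hK4 : (K : ℝ) * (1 + 2 * δ) ^ (m + 1) * θ ^ m * w0 < 1 := by
    refine lt_of_eq_of_lt ?_ hK2
    rw [hw0, mul_pow]; ring
  obtain ⟨H0, hH0⟩ := hint W V (fun o => by cases o; exacts [by linarith, hw _])
    (fun o => by cases o; exacts [hv0, div_pos (hw _) hθ]) hVW
    (fun i => by
      have := (hWa i).2.1
      rw [div_le_iff₀ hη] at this
      change v0 ≤ η * w i
      linarith)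
    (fun i j hij => by
      have h1 : (1 + 1 / (θ * η)) * w i ≤ w j := hsep i j hij
      change w i / θ ≤ η * w j
      have h2 : w i / θ = η * (1 / (θ * η) * w i) := by field_simp
      rw [h2]
      gcongr
      nlinarith [hw i])
    K x
    (fun i j j' hjj => by
      have hp0 : (p i : ℂ) ≠ 0 := by
        intro h0
        have h1 : p i = 0 := by exact_mod_cast h0
        have h2 := happ i
        rw [h1, Int.cast_zero, zero_div, sub_zero, abs_of_pos hpi] at h2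
        have h3 : Real.exp (-ν * w i) ≤ 1 := Real.exp_le_one_iff.2 (by nlinarith [hw i])
        linarith [Real.pi_gt_three]
      have hq0 : (q i : ℂ) ≠ 0 := Nat.cast_ne_zero.2 (by have := (hP i).1; omega)
      have h4 := mul_right_cancel₀ (mul_ne_zero (mul_ne_zero two_ne_zero Complex.I_ne_zero)
        (div_ne_zero hp0 hq0)) hjj
      exact Fin.ext (by exact_mod_cast h4))
    T
    (fun i => by
      change w i / θ ≤ v0 * (T i + 1)
      rw [div_le_iff₀ hθ]
      linarith [hT i])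
    (lt_of_lt_of_le hK4 hv1)
    (by
      refine lt_of_le_of_lt ?_ hK4
      have h1 : (1 + 2 * δ) ^ m ≤ (1 + 2 * δ) ^ (m + 1) :=
        pow_le_pow_right₀ (by linarith) (Nat.le_succ m)
      calc _ ≤ (K : ℝ) * (1 + 2 * δ) ^ (m + 1) * θ ^ m := by gcongr
        _ ≤ _ := le_mul_of_one_le_right (by positivity) hw01)
  have hcount := ev_count (K := K) hw hA (mul_pos hθ hδ') hδ hv0 hνδ (by
    rw [div_pow, div_mul_div_comm, div_lt_iff₀ (by positivity)] at hK1
    have h1 : δ * (K * (δ / v0) * (θ * (1 - δ)) ^ m) = K * (δ ^ 2 * (θ * (1 - δ)) ^ m) / v0 := by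
      ring
    rw [h1, lt_div_iff₀ hv0]
    linarith)
  have hgp := ev_gap (K := K) (fun i => (hWa i).1) (mul_pos hθ hδ') (by nlinarith)
    (div_pos hδ hv0) ((div_le_one hv0).2 (by linarith)) (sub_pos.2 hgap)
  obtain ⟨H, ⟨⟨h1, h2⟩, h3⟩, hH⟩ := (((hcount.and hgp).and (eventually_ge_atTop H0)).and
    (eventually_gt_atTop 0)).exists
  refine core hK hν hθ hδ hδ1 hA hv0 hκ hH (fun i => p i) (fun i => q i) W V T x (fun _ _ => rfl)
    rfl rfl hVW hw hq happ hT (fun i => ?_) (fun i => ?_) (hH0 H h3) h1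
    (by rw [div_mul_eq_mul_div] at h2; exact h2)
  · have h4 : (Nat.lcmUpto (T i) : ℝ) ≤ Real.exp (δ * w i / 2) := by
      rw [← Real.log_le_iff_le_exp (by exact_mod_cast Nat.lcmUpto_pos _),
        ← Chebyshev.psi_eq_log_lcmUpto]
      refine (Chebyshev.psi_le_const_mul_self (Nat.cast_nonneg _)).trans ?_
      have h5 : (T i : ℝ) ≤ w i / (θ * v0) := Nat.floor_le (by have := hw i; positivity)
      have h6 : w i / (θ * v0) ≤ w i / (2 * c0 / δ) := by
        exact div_le_div_of_nonneg_left (hw i).le (by positivity) (by linarith)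
      have h7 : c0 * (w i / (2 * c0 / δ)) = δ * w i / 2 := by field_simp
      rw [← h7]
      gcongr
      exact h5.trans h6
    have h8 : 2 * w0 ≤ Real.exp (δ * w i / 2) := by
      have h9 := (hWa i).2.2.1
      rw [div_le_iff₀ hδ] at h9
      linarith [Real.add_one_le_exp (δ * w i / 2)]
    change 2 * w0 * _ ≤ Real.exp (δ * w i)
    calc _ ≤ Real.exp (δ * w i / 2) * Real.exp (δ * w i / 2) := by gcongr
      _ = _ := by rw [← Real.exp_add]; congr 1; ring
  · have h9 := (hWa i).2.2.2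
    rw [div_le_iff₀ hδ] at h9
    change _ ≤ Real.exp (δ * w i)
    linarith [Real.add_one_le_exp (δ * w i)]

/-- For `ν > 2` only finitely many fractions approximate `π` to order `ν`. -/
theorem finite_approx {ν : ℝ} (hν : 2 < ν) :
    {pq : ℤ × ℤ | 2 ≤ pq.2 ∧ |Real.pi - pq.1 / pq.2| < (pq.2 : ℝ) ^ (-ν)}.Finite := by
  by_contra hinf
  refine no_approx hν fun B => ?_
  by_contra hcon
  push Not at hcon
  apply hinf
  obtain ⟨N, hN⟩ := exists_nat_ge (Real.exp B)
  refine ((Set.finite_Icc (-(5 * N : ℤ)) (5 * N)).prod (Set.finite_Icc (0 : ℤ) N)).subset ?_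
  rintro ⟨p, q⟩ ⟨h1, h2⟩
  simp only at h1 h2
  obtain ⟨n, rfl⟩ := Int.eq_ofNat_of_zero_le (show 0 ≤ q by omega)
  have hn : (2 : ℝ) ≤ n := by exact_mod_cast h1
  rw [Int.cast_natCast] at h2
  have h3 := hcon p n ⟨by exact_mod_cast h1, h2⟩
  rw [Real.log_lt_iff_lt_exp (by linarith)] at h3
  have h4 : (n : ℝ) ≤ N := by linarith
  have h5 : (n : ℝ) ^ (-ν) ≤ 1 := Real.rpow_le_one_of_one_le_of_nonpos (by linarith) (by linarith)
  have h6 := abs_lt.1 (lt_of_lt_of_le h2 h5)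
  have h7 : (p : ℝ) / n < 5 := by linarith [Real.pi_lt_four]
  have h8 : 0 < (p : ℝ) / n := by linarith [Real.pi_gt_three]
  rw [div_lt_iff₀ (by linarith)] at h7
  rw [lt_div_iff₀ (by linarith), zero_mul] at h8
  refine ⟨⟨?_, ?_⟩, ⟨by omega, by simp only; exact_mod_cast h4⟩⟩
  · have : (0 : ℤ) < p := by exact_mod_cast h8
    simp only; omega
  · have : (p : ℝ) ≤ 5 * N := by linarith
    exact_mod_cast this

theorem infinite_approx : {pq : ℤ × ℤ | IsCoprime pq.1 pq.2 ∧ 2 ≤ pq.2 ∧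
    0 < |Real.pi - pq.1 / pq.2| ∧ |Real.pi - pq.1 / pq.2| < (pq.2 : ℝ) ^ (-2 : ℝ)}.Infinite := by
  have h1 := Real.infinite_rat_abs_sub_lt_one_div_den_sq_of_irrational irrational_pi
  have h2 : ({3, 4} : Set ℚ).Finite := Set.toFinite _
  refine Set.infinite_of_injOn_mapsTo (f := fun r : ℚ => (r.num, (r.den : ℤ))) ?_ ?_ (h1.sdiff h2)
  · intro r _ r' _ hrr
    simp only [Prod.mk.injEq, Nat.cast_inj] at hrr
    exact Rat.ext hrr.1 hrr.2
  · rintro r ⟨hr, hr2⟩
    have h3 : (r : ℝ) = r.num / r.den := Rat.cast_def r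
    simp only [Set.mem_ofPred_eq, Int.cast_natCast] at hr ⊢
    rw [← h3]
    refine ⟨Int.isCoprime_iff_gcd_eq_one.2 r.reduced, ?_,
      abs_pos.2 (sub_ne_zero.2 (irrational_pi.ne_rat r)), ?_⟩
    · by_contra h4
      have h5 : r.den = 1 := by have := r.den_pos; omega
      rw [h5, h3, h5] at hr
      simp only [Nat.cast_one, div_one, one_pow] at hr
      have h6 := abs_lt.1 hr
      have h7 : (2 : ℝ) < r.num := by linarith [Real.pi_gt_three]
      have h8 : (r.num : ℝ) < 5 := by linarith [Real.pi_lt_four]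
      have h9 : 2 < r.num := by exact_mod_cast h7
      have h10 : r.num < 5 := by exact_mod_cast h8
      apply hr2
      have h11 : r = r.num := (Rat.coe_int_num_of_den_eq_one h5).symm
      rcases (show r.num = 3 ∨ r.num = 4 by omega) with h12 | h12
      · left; rw [h11, h12]; rfl
      · right; rw [h11, h12]; rfl
    · rw [Real.rpow_neg (Nat.cast_nonneg _), Real.rpow_two, ← one_div]
      exact hr

end Vale.Agent.P021
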