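import Mathlib

/-! Abstract Noetherian induction for simultaneous interpolation. -/

namespace Vale.Agent.P021

variable {A : Type*} [CommRing A] {ι : Type*}

/-- Interpolation modulo the ideal `a`. -/
def Surj (P : ℝ → AddSubgroup A) (I : ι → ℝ → Ideal A) (l1 : ℝ) (a : Ideal A) : Prop :=
  ∀ l < l1, ∃ H0 : ℝ, ∀ H ≥ H0, ∀ L ≤ l * H, ∀ g : ι → A,
    ∃ f ∈ P H, ∀ j, f - g j ∈ a ⊔ I j L

/-- The key polynomial for the ideal `p`. -/
def Key (P : ℝ → AddSubgroup A) (I : ι → ℝ → Ideal A) (l1 : ℝ) (p : Ideal A) : Prop :=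
  ∃ N : ℝ, 0 < N ∧ ∃ F ∈ P N, F ∉ p ∧ ∀ j, F ∈ p ⊔ I j (l1 * N)

theorem mem_sup_span_sup {a J : Ideal A} {f x : A} (h : x ∈ (a ⊔ Ideal.span {f}) ⊔ J) :
    ∃ c, x - f * c ∈ a ⊔ J := by
  rw [sup_right_comm] at h
  obtain ⟨y, hy, z, hz, rfl⟩ := Submodule.mem_sup.1 h
  obtain ⟨c, rfl⟩ := Ideal.mem_span_singleton'.1 hz
  exact ⟨c, by simpa [mul_comm] using hy⟩

theorem surj_of_key {P : ℝ → AddSubgroup A} {I : ι → ℝ → Ideal A} {l1 : ℝ} (hl1 : 0 < l1)
    (hP : ∀ {x y : ℝ} {f g : A}, f ∈ P x → g ∈ P y → f * g ∈ P (x + y))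
    (hI : ∀ j {x y : ℝ} {f g : A}, f ∈ I j x → g ∈ I j y → f * g ∈ I j (x + y))
    (hI0 : ∀ j x, x ≤ 0 → I j x = ⊤)
    {p : Ideal A} (hk : Key P I l1 p) (ih : ∀ b > p, Surj P I l1 b) : Surj P I l1 p := by
  obtain ⟨N, hN, F, hFP, hFp, hFI⟩ := hk
  have hlt : p < p ⊔ Ideal.span {F} := by
    refine lt_of_le_of_ne le_sup_left fun h => hFp ?_
    rw [h]; exact Ideal.mem_sup_right (Ideal.subset_span rfl)
  intro l hl
  obtain ⟨H1, hH1⟩ := ih _ hlt l hl
  have key : ∀ k : ℕ, ∀ H L : ℝ, L ≤ l * H → L ≤ k * (l1 * N) → H1 ≤ H - L / l1 →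
      ∀ g : ι → A, ∃ f ∈ P H, ∀ j, f - g j ∈ p ⊔ I j L := by
    intro k
    induction k with
    | zero =>
      intro H L _ h2 _ g
      refine ⟨0, zero_mem _, fun j => ?_⟩
      rw [hI0 j L (by simpa using h2)]; simp
    | succ k ihk =>
      intro H L h1 h2 h3 g
      by_cases hL : L ≤ 0
      · refine ⟨0, zero_mem _, fun j => ?_⟩
        rw [hI0 j L hL]; simp
      push Not at hL
      have hdiv : 0 < L / l1 := div_pos hL hl1
      obtain ⟨h, hhP, hh⟩ := hH1 H (by linarith) L h1 g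
      choose c hc using fun j => mem_sup_span_sup (hh j)
      obtain ⟨e, heP, he⟩ := ihk (H - N) (L - l1 * N) (by nlinarith)
        (by push_cast at h2; nlinarith)
        (by
          have : (L - l1 * N) / l1 = L / l1 - N := by field_simp
          rw [this]; linarith) c
      refine ⟨h - F * e, sub_mem hhP (by simpa using hP hFP heP), fun j => ?_⟩
      have h4 : F * (e - c j) ∈ p ⊔ I j L := by
        obtain ⟨x, hx, y, hy, hxy⟩ := Submodule.mem_sup.1 (hFI j)
        obtain ⟨x', hx', y', hy', hxy'⟩ := Submodule.mem_sup.1 (he j)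
        rw [← hxy, ← hxy']
        have h5 : y * y' ∈ I j L := by simpa using hI j hy hy'
        have : (x + y) * (x' + y') = (x * (x' + y') + y * x') + y * y' := by ring
        rw [this]
        exact add_mem (Ideal.mem_sup_left (add_mem (p.mul_mem_right _ hx) (p.mul_mem_left _ hx')))
          (Ideal.mem_sup_right h5)
      have : h - F * e - g j = (h - g j - F * c j) - F * (e - c j) := by ring
      rw [this]
      exact sub_mem (hc j) h4
  have hpos : 0 < 1 - l / l1 := by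
    have : l / l1 < 1 := (div_lt_one hl1).2 hl
    linarith
  refine ⟨max 0 (max H1 (H1 / (1 - l / l1))), fun H hH L hL g => ?_⟩
  have hH0 : 0 ≤ H := le_trans (le_max_left _ _) hH
  have hHa : H1 ≤ H := le_trans (le_trans (le_max_left _ _) (le_max_right _ _)) hH
  have hHb : H1 / (1 - l / l1) ≤ H := le_trans (le_trans (le_max_right _ _) (le_max_right _ _)) hH
  obtain ⟨k, hk⟩ := exists_nat_ge (L / (l1 * N))
  refine key k H L hL (by rwa [div_le_iff₀ (by positivity)] at hk) ?_ g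
  rw [div_le_iff₀ hpos] at hHb
  have : L / l1 ≤ l * H / l1 := by gcongr
  have h2 : l * H / l1 = H * (l / l1) := by ring
  nlinarith

theorem surj_all [IsNoetherianRing A] {P : ℝ → AddSubgroup A} {I : ι → ℝ → Ideal A} {l1 : ℝ}
    (hl1 : 0 < l1)
    (hP : ∀ {x y : ℝ} {f g : A}, f ∈ P x → g ∈ P y → f * g ∈ P (x + y))
    (hPex : ∀ f, ∃ N, f ∈ P N)
    (hI : ∀ j {x y : ℝ} {f g : A}, f ∈ I j x → g ∈ I j y → f * g ∈ I j (x + y))
    (hI0 : ∀ j x, x ≤ 0 → I j x = ⊤)
    (hkey : ∀ p : Ideal A, p.IsPrime → Key P I l1 p ∨ Surj P I l1 p) (a : Ideal A) :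
    Surj P I l1 a := by
  induction a using IsNoetherian.induction with
  | hgt a ih =>
  by_cases hp : Ideal.IsPrime a
  · rcases hkey a hp with h | h
    · exact surj_of_key hl1 hP hI hI0 h ih
    · exact h
  by_cases htop : a = ⊤
  · intro l _
    exact ⟨0, fun H _ L _ g => ⟨0, zero_mem _, fun j => by simp [htop]⟩⟩
  obtain ⟨f, hf, g, hg, hfg⟩ := (Ideal.not_isPrime_iff.1 hp).resolve_left htop
  have hlt : ∀ {f}, f ∉ a → a < a ⊔ Ideal.span {f} := by
    intro f hf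
    refine lt_of_le_of_ne le_sup_left fun h => hf ?_
    rw [h]; exact Ideal.mem_sup_right (Ideal.subset_span rfl)
  intro l hl
  obtain ⟨N, hN⟩ := hPex f
  obtain ⟨H1, hH1⟩ := ih _ (hlt hf) l hl
  obtain ⟨H2, hH2⟩ := ih _ (hlt hg) ((l + l1) / 2) (by linarith)
  have hd : 0 < (l1 - l) / 2 := by linarith
  refine ⟨max H1 (max (H2 + N) ((l + l1) / 2 * N / ((l1 - l) / 2))), fun H hH L hL x => ?_⟩
  have hHa : H1 ≤ H := le_trans (le_max_left _ _) hH
  have hHb : H2 + N ≤ H := le_trans (le_trans (le_max_left _ _) (le_max_right _ _)) hH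
  have hHc := le_trans (le_trans (le_max_right _ _) (le_max_right _ _)) hH
  rw [div_le_iff₀ hd] at hHc
  obtain ⟨h, hhP, hh⟩ := hH1 H hHa L hL x
  choose c hc using fun j => mem_sup_span_sup (hh j)
  obtain ⟨e, heP, he⟩ := hH2 (H - N) (by linarith) L (by nlinarith) c
  refine ⟨h - f * e, sub_mem hhP (by simpa using hP hN heP), fun j => ?_⟩
  obtain ⟨d, hd'⟩ := mem_sup_span_sup (he j)
  have : h - f * e - x j = (h - x j - f * c j) - f * (e - c j - g * d) - (f * g) * d := by ring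
  rw [this]
  exact sub_mem (sub_mem (hc j) (Ideal.mul_mem_left _ _ hd'))
    (Ideal.mem_sup_left (Ideal.mul_mem_right _ a hfg))

end Vale.Agent.P021
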