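import Vale.Agent.P021.Interp
import Vale.Agent.P021.Det

/-! The analytic upper bound for the interpolation determinant. -/

namespace Vale.Agent.P021

open Finset MvPolynomial Filter Topology

variable {m : ℕ}

/-- Taylor coefficients of `z ^ d * exp (β z)`. -/
noncomputable def cf (β d n : ℕ) : ℂ :=
  if d ≤ n then (β : ℂ) ^ (n - d) / ((n - d).factorial : ℂ) else 0

theorem tendsto_cf (z : ℂ) (β d : ℕ) :
    Tendsto (fun N => ∑ n ∈ range N, z ^ n * cf β d n) atTop (𝓝 (z ^ d * Complex.exp (β * z))) := by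
  refine HasSum.tendsto_sum_nat ((hasSum_nat_add_iff' d).1 ?_)
  have h1 : ∑ i ∈ range d, z ^ i * cf β d i = 0 :=
    sum_eq_zero fun i hi => by rw [cf, if_neg (by simpa using hi), mul_zero]
  rw [h1, sub_zero, Complex.exp_eq_exp_ℂ]
  refine HasSum.congr_fun ((NormedSpace.expSeries_div_hasSum_exp ((β : ℂ) * z)).mul_left (z ^ d)) ?_
  intro n
  rw [cf, if_pos (by omega), Nat.add_sub_cancel, mul_pow, pow_add]
  ring

theorem norm_cf_le {R : ℝ} (hR : 0 ≤ R) (β d n : ℕ) :
    R ^ n * ‖cf β d n‖ ≤ R ^ d * Real.exp (β * R) := by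
  unfold cf
  split_ifs with h
  · obtain ⟨l, rfl⟩ := Nat.exists_eq_add_of_le h
    rw [Nat.add_sub_cancel_left, norm_div, norm_pow, Complex.norm_natCast, Complex.norm_natCast,
      pow_add, mul_assoc]
    gcongr
    have := Real.pow_div_factorial_le_exp ((β : ℝ) * R) (by positivity) l
    rw [mul_pow] at this
    refine le_trans (le_of_eq ?_) this
    ring
  · rw [norm_zero, mul_zero]; positivity

theorem sig_monomial (T : Fin m → ℕ) (x : Fin m → ℂ) (e : Option (Fin m) →₀ ℕ) :
    sig T x (monomial e 1) = (1 + X none) ^ e none *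
      ∏ i, (C (x i) + GG (T i) + X (some i)) ^ e (some i) := by
  rw [sig, aeval_monomial, map_one, one_mul, Finsupp.prod_fintype _ _ (by simp),
    Fintype.prod_option]

theorem eval_GG (pt : Option (Fin m) → ℂ) (T : ℕ) :
    eval pt (GG T : AA m) = Complex.logTaylor (T + 1) (pt none) := by
  simp only [GG, Complex.logTaylor, map_sum, map_mul, eval_C, map_pow, eval_X]
  exact sum_congr rfl fun k _ => by ring

theorem add_pow_range (z η : ℂ) {α B : ℕ} (h : α ≤ B) :
    (z + η) ^ α = ∑ b ∈ range (B + 1), η ^ b * (z ^ (α - b) * (α.choose b : ℂ)) := by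
  rw [add_comm, add_pow]
  simp only [mul_assoc]
  refine sum_subset (range_subset_range.2 (by omega)) fun b _ hb => ?_
  rw [Nat.choose_eq_zero_of_lt (by simpa using hb)]
  simp

theorem upper_bound {ρ : Type} [Fintype ρ] [DecidableEq ρ] (T : Fin m → ℕ)
    (x : ρ → Fin m → ℂ) (jr : ρ → ℕ) (er col : ρ → Option (Fin m) →₀ ℕ) (Q : Fin m → ℝ)
    (hQ : ∀ i, 0 ≤ Q i) (rad : Option (Fin m) → ℝ) (hrad : ∀ o, 0 < rad o)
    (hrad0 : rad none ≤ 1 / 2) (y : Fin m → ℝ) {R0 X Γ : ℝ}
    (hR0 : ∀ r, 2 * Real.pi * jr r + 1 ≤ R0) (hR1 : 1 ≤ R0)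
    (hη : ∀ r i, 2 * (‖x r i - jr r * (2 * Real.pi * Complex.I)‖ + 2 * rad none ^ (T i + 1)
      + rad (some i)) ≤ Real.exp (-y i))
    (hX0 : 0 ≤ X)
    (hX : ∀ c, Real.exp (col c none * (Real.exp 2 * R0)) *
      ∏ i, (2 * (Real.exp 2 * R0) * Q i) ^ col c (some i) ≤ X)
    (hΓ : ∀ ξ : ρ → (Fin m → ℕ) × ℕ, Function.Injective ξ →
      Γ ≤ ∑ r, (∑ i, y i * (ξ r).1 i + (ξ r).2)) :
    ‖(Matrix.of fun r c => (∏ i, (Q i : ℂ) ^ col c (some i)) *
        coeff (er r) (sig T (x r) (monomial (col c) 1))).det‖ ≤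
      (Fintype.card ρ).factorial * X ^ Fintype.card ρ * (∏ r, ∏ o, (rad o)⁻¹ ^ er r o)
        * Real.exp (-Γ) * (2 ^ (m + 1)) ^ Fintype.card ρ := by
  classical
  obtain ⟨κ, _, pt, lam, hpt, hlam, havg⟩ := exists_avg rad hrad er
    (fun q : ρ × ρ => sig T (x q.1) (monomial (col q.2) 1))
  set R : ℝ := Real.exp 2 * R0 with hR
  have he2 : 2 * Real.exp 1 ≤ Real.exp 2 := by
    rw [show (2 : ℝ) = 1 + 1 by norm_num, Real.exp_add]
    have := Real.add_one_le_exp 1
    nlinarith [Real.exp_pos 1]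
  have hRpos : 0 < R := by positivity
  have hR1' : 1 ≤ R := by nlinarith [Real.add_one_le_exp 2]
  set B : ℕ := univ.sup fun c => univ.sup fun i => col c (some i)
  have hB : ∀ c i, col c (some i) ≤ B := fun c i =>
    le_trans (le_sup (f := fun i => col c (some i)) (mem_univ i))
      (le_sup (f := fun c => univ.sup fun i => col c (some i)) (mem_univ c))
  set z : ρ → κ → ℂ := fun r k => jr r * (2 * Real.pi * Complex.I) + Complex.log (1 + pt k none)
    with hz
  set η : ρ → κ → Fin m → ℂ := fun r k i =>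
    x r i + Complex.logTaylor (T i + 1) (pt k none) + pt k (some i) - z r k with hηdef
  have hzn : ∀ r k, ‖z r k‖ ≤ R0 := by
    intro r k
    have h1 := Complex.norm_log_one_add_half_le_self (z := pt k none) (by rw [hpt]; exact hrad0)
    rw [hpt] at h1
    have h2 : ‖(jr r : ℂ) * (2 * Real.pi * Complex.I)‖ = 2 * Real.pi * jr r := by
      simp [abs_of_pos Real.pi_pos, mul_comm]
    have := hR0 r
    calc ‖z r k‖ ≤ _ := norm_add_le _ _
      _ ≤ R0 := by rw [h2]; linarith
  have hηn : ∀ r k i, 2 * ‖η r k i‖ ≤ Real.exp (-y i) := by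
    intro r k i
    refine le_trans ?_ (hη r i)
    have h1 := Complex.norm_log_sub_logTaylor_le (T i) (z := pt k none)
      (by rw [hpt]; linarith)
    rw [hpt] at h1
    have h2 : rad none ^ (T i + 1) * (1 - rad none)⁻¹ / (T i + 1) ≤ 2 * rad none ^ (T i + 1) := by
      have h3 : (1 - rad none)⁻¹ ≤ 2 := by
        rw [inv_le_comm₀ (by linarith) (by norm_num)]; linarith
      have h4 : 0 < rad none ^ (T i + 1) := pow_pos (hrad _) _
      have h5 : (1 : ℝ) ≤ T i + 1 := by linarith [Nat.cast_nonneg (α := ℝ) (T i)]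
      calc _ ≤ rad none ^ (T i + 1) * (1 - rad none)⁻¹ :=
            div_le_self (mul_nonneg h4.le (inv_nonneg.2 (by linarith))) h5
        _ ≤ _ := by rw [mul_comm]; gcongr
    have h6 : η r k i = (x r i - jr r * (2 * Real.pi * Complex.I))
        - (Complex.log (1 + pt k none) - Complex.logTaylor (T i + 1) (pt k none))
        + pt k (some i) := by simp only [hηdef, hz]; ring
    have h7 : ‖η r k i‖ ≤ ‖x r i - jr r * (2 * Real.pi * Complex.I)‖
        + ‖Complex.log (1 + pt k none) - Complex.logTaylor (T i + 1) (pt k none)‖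
        + ‖pt k (some i)‖ := by
      rw [h6]
      exact (norm_add_le _ _).trans (by gcongr; exact norm_sub_le _ _)
    rw [hpt] at h7
    linarith
  have hexp : ∀ r k (β : ℕ), (1 + pt k none) ^ β = Complex.exp (β * z r k) := by
    intro r k β
    have h1 : 1 + pt k none ≠ 0 := by
      intro h
      have h2 : ‖pt k none‖ = 1 := by rw [eq_neg_of_add_eq_zero_right h]; simp
      rw [hpt] at h2; linarith
    rw [Complex.exp_nat_mul, hz]
    simp only
    rw [Complex.exp_add, Complex.exp_nat_mul_two_pi_mul_I, one_mul, Complex.exp_log h1]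
  set γ : ρ → (Fin m → ℕ) × ℕ → ℂ := fun r ξ =>
    ∑ k, lam r k * ((∏ i, η r k i ^ ξ.1 i) * (z r k / R) ^ ξ.2) with hγ
  set φ : (Fin m → ℕ) × ℕ → ρ → ℂ := fun ξ c => (∏ i, (Q i : ℂ) ^ col c (some i)) *
    ((∏ i, ((col c (some i)).choose (ξ.1 i) : ℂ)) * ((R : ℂ) ^ ξ.2 *
      cf (col c none) (∑ i, (col c (some i) - ξ.1 i)) ξ.2)) with hφ
  set P := Fintype.piFinset fun _ : Fin m => range (B + 1) with hP
  have hlim : ∀ r c, Tendsto (fun N => ∑ ξ ∈ P ×ˢ range N, γ r ξ * φ ξ c) atTop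
      (𝓝 ((∏ i, (Q i : ℂ) ^ col c (some i)) *
        coeff (er r) (sig T (x r) (monomial (col c) 1)))) := by
    intro r c
    have h1 : (∏ i, (Q i : ℂ) ^ col c (some i)) * coeff (er r) (sig T (x r) (monomial (col c) 1))
        = ∑ b ∈ P, ∑ k, ((∏ i, (Q i : ℂ) ^ col c (some i)) * lam r k * (∏ i, η r k i ^ b i) *
          ∏ i, ((col c (some i)).choose (b i) : ℂ)) *
          (z r k ^ (∑ i, (col c (some i) - b i)) * Complex.exp (col c none * z r k)) := by
      rw [havg r (r, c), sum_comm, mul_sum]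
      refine sum_congr rfl fun k _ => ?_
      have h2 : ∀ i, x r i + Complex.logTaylor (T i + 1) (pt k none) + pt k (some i)
          = z r k + η r k i := fun i => by simp only [hηdef]; ring
      simp only [sig_monomial, map_mul, map_pow, map_add, map_one, eval_X, map_prod, eval_C,
        eval_GG, h2, hexp r k, fun i => add_pow_range (z r k) (η r k i) (hB c i)]
      rw [prod_univ_sum, mul_sum, mul_sum, mul_sum]
      refine sum_congr rfl fun b _ => ?_
      rw [prod_mul_distrib, prod_mul_distrib, prod_pow_eq_pow_sum]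
      ring
    have h3 : ∀ N, ∑ ξ ∈ P ×ˢ range N, γ r ξ * φ ξ c
        = ∑ b ∈ P, ∑ k, ((∏ i, (Q i : ℂ) ^ col c (some i)) * lam r k * (∏ i, η r k i ^ b i) *
          ∏ i, ((col c (some i)).choose (b i) : ℂ)) *
          ∑ n ∈ range N, z r k ^ n * cf (col c none) (∑ i, (col c (some i) - b i)) n := by
      intro N
      rw [sum_product]
      refine sum_congr rfl fun b _ => ?_
      simp only [hγ, hφ, sum_mul, mul_sum]
      rw [sum_comm]
      refine sum_congr rfl fun k _ => sum_congr rfl fun n _ => ?_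
      have : (R : ℂ) ≠ 0 := Complex.ofReal_ne_zero.2 hRpos.ne'
      rw [div_pow]
      field_simp
    simp only [h1, h3]
    exact tendsto_finsetSum _ fun b _ => tendsto_finsetSum _ fun k _ =>
      (tendsto_cf _ _ _).const_mul _
  have hdet : Tendsto (fun N => ‖(Matrix.of fun r c => ∑ ξ ∈ P ×ˢ range N, γ r ξ * φ ξ c).det‖)
      atTop (𝓝 ‖(Matrix.of fun r c => (∏ i, (Q i : ℂ) ^ col c (some i)) *
        coeff (er r) (sig T (x r) (monomial (col c) 1))).det‖) := by
    refine Tendsto.norm ?_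
    refine ((continuous_id.matrix_det).tendsto _).comp
      (tendsto_pi_nhds.2 fun r => tendsto_pi_nhds.2 fun c => hlim r c)
  refine le_of_tendsto' hdet fun N => ?_
  refine det_sum_bound _ γ φ (fun r => ∏ o, (rad o)⁻¹ ^ er r o)
    (fun ξ => ∑ i, y i * ξ.1 i + ξ.2) (fun ξ => (∏ i, (1 / 2 : ℝ) ^ ξ.1 i) * (1 / 2) ^ ξ.2)
    (fun r => prod_nonneg fun o _ => pow_nonneg (inv_nonneg.2 (hrad o).le) _)
    (fun ξ => by positivity) hX0 ?_ ?_ ?_ hΓ
  · intro ξ c
    refine le_trans ?_ (hX c)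
    have h1 := norm_cf_le hRpos.le (col c none) (∑ i, (col c (some i) - ξ.1 i)) ξ.2
    have h2 : R ^ (∑ i, (col c (some i) - ξ.1 i)) ≤ ∏ i, R ^ col c (some i) := by
      rw [prod_pow_eq_pow_sum]
      exact pow_le_pow_right₀ hR1' (sum_le_sum fun i _ => Nat.sub_le _ _)
    have h3 : ∏ i, ((col c (some i)).choose (ξ.1 i) : ℝ) ≤ ∏ i, (2 : ℝ) ^ col c (some i) :=
      prod_le_prod (fun i _ => Nat.cast_nonneg _) fun i _ => by
        exact_mod_cast Nat.choose_le_two_pow _ _
    simp only [hφ, norm_mul, norm_prod, norm_pow, Complex.norm_real, Complex.norm_natCast,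
      Real.norm_of_nonneg (hQ _), Real.norm_of_nonneg hRpos.le]
    have h4 : 0 ≤ ∏ i, Q i ^ col c (some i) := prod_nonneg fun i _ => pow_nonneg (hQ i) _
    calc _ ≤ (∏ i, Q i ^ col c (some i)) * ((∏ i, (2 : ℝ) ^ col c (some i)) *
          ((∏ i, R ^ col c (some i)) * Real.exp (col c none * R))) := by
          have h5 := h1.trans (mul_le_mul_of_nonneg_right h2 (Real.exp_pos _).le)
          gcongr ?_ * (?_ * ?_)
      _ = _ := by
          simp only [mul_pow, prod_mul_distrib]
          ring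
  · intro r ξ
    have h1 : ∀ k, ‖(∏ i, η r k i ^ ξ.1 i) * (z r k / R) ^ ξ.2‖ ≤
        Real.exp (-(∑ i, y i * ξ.1 i + ξ.2)) * ((∏ i, (1 / 2 : ℝ) ^ ξ.1 i) * (1 / 2) ^ ξ.2) := by
      intro k
      have h2 : ‖z r k / R‖ ≤ Real.exp (-1) * (1 / 2) := by
        rw [norm_div, Complex.norm_real, Real.norm_of_nonneg hRpos.le, div_le_iff₀ hRpos,
          Real.exp_neg]
        refine (hzn r k).trans ?_
        have h3 := Real.exp_pos 1
        have h4 : (Real.exp 1)⁻¹ * (1 / 2) * R = (Real.exp 2 / (2 * Real.exp 1)) * R0 := by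
          rw [hR]; field_simp
        rw [h4]
        have h5 : 1 ≤ Real.exp 2 / (2 * Real.exp 1) := (one_le_div (by positivity)).2 he2
        nlinarith
      have h6 : ∀ i, ‖η r k i‖ ≤ Real.exp (-y i) * (1 / 2) := fun i => by linarith [hηn r k i]
      rw [norm_mul, norm_prod, norm_pow]
      calc _ ≤ (∏ i, (Real.exp (-y i) * (1 / 2)) ^ ξ.1 i) * (Real.exp (-1) * (1 / 2)) ^ ξ.2 := by
            gcongr with i
            rw [norm_pow]
            gcongr
            exact h6 i
        _ = _ := by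
            simp only [mul_pow, prod_mul_distrib, ← Real.exp_nat_mul, ← Real.exp_sum, neg_add,
              Real.exp_add]
            have h7 : ∑ i, (ξ.1 i : ℝ) * -y i = -∑ i, y i * ξ.1 i := by
              rw [← sum_neg_distrib]; exact sum_congr rfl fun i _ => by ring
            rw [h7, mul_neg, mul_one]
            ring
    calc ‖γ r ξ‖ ≤ ∑ k, ‖lam r k‖ * (Real.exp (-(∑ i, y i * ξ.1 i + ξ.2)) *
          ((∏ i, (1 / 2 : ℝ) ^ ξ.1 i) * (1 / 2) ^ ξ.2)) := by
          refine (norm_sum_le _ _).trans (sum_le_sum fun k _ => ?_)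
          rw [norm_mul]
          gcongr
          exact h1 k
      _ ≤ _ := by
          rw [← sum_mul]
          gcongr
          exact hlam r
  · rw [sum_product' (f := fun (b : Fin m → ℕ) (n : ℕ) => (∏ i, (1 / 2 : ℝ) ^ b i) * (1 / 2) ^ n),
      ← sum_mul_sum, hP, ← prod_univ_sum (fun _ : Fin m => range (B + 1))
      (fun _ b => (1 / 2 : ℝ) ^ b), pow_succ]
    gcongr
    · calc _ ≤ ∏ _i : Fin m, (2 : ℝ) :=
            prod_le_prod (fun i _ => by positivity) fun i _ => sum_geometric_two_le _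
        _ = 2 ^ m := by simp
    · exact sum_geometric_two_le _

end Vale.Agent.P021
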